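import Vale.Agent.P170.Sat

namespace Vale.Agent.P170

open Finset

variable {V : Type} [DecidableEq V]

lemma anti_sum (F : ℕ × ℕ → ℝ) (F0 : ∀ p, 0 ≤ F p) (M : ℕ) :
    ∑ t ∈ range M, ∑ m ∈ antidiagonal t, F m ≤ ∑ d ∈ range M, ∑ t ∈ range M, F (t, d) := by
  rw [← sum_biUnion fun t _ t' _ h => disjoint_left.mpr fun m h1 h2 =>
    h ((HasAntidiagonal.mem_antidiagonal.mp h1).symm.trans (HasAntidiagonal.mem_antidiagonal.mp h2)), sum_comm, ← sum_product']
  refine sum_le_sum_of_subset_of_nonneg (fun m hm => ?_) fun p _ _ => F0 p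
  simp only [mem_biUnion, mem_range, HasAntidiagonal.mem_antidiagonal, mem_product] at hm ⊢
  obtain ⟨t, h1, h2⟩ := hm
  omega

lemma binom {A : Type} {X Y : Op A} (h : Commute X Y) (a b : ℝ) (t : ℕ) (f : Set A → ℝ) (S : Set A) :
    ((a • X + b • Y) ^ t) f S
      = ∑ m ∈ antidiagonal t, (t.choose m.1 * a ^ m.1 * b ^ m.2) * (X ^ m.1) ((Y ^ m.2) f) S := by
  rw [((h.smul_left a).smul_right b).add_pow', LinearMap.sum_apply, Finset.sum_apply]
  refine sum_congr rfl fun m _ => ?_
  rw [← Nat.cast_smul_eq_nsmul ℝ]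
  simp only [smul_pow, LinearMap.smul_apply, Module.End.mul_apply, map_smul, Pi.smul_apply,
    smul_eq_mul]
  ring

noncomputable def Ysum (j : ℕ) (W : Finset V) (M u : ℕ) : ℝ :=
  ∑ t ∈ range M, (T (j + 1) W ^ t) ((T j W ^ u) (hz (T 1 W))) Set.univ

lemma Yterm (j : ℕ) {W : Finset V} (h : W.Nonempty) (t u : ℕ) :
    (T (j + 1) W ^ t) ((T j W ^ u) (hz (T 1 W))) Set.univ ≤ 1 :=
  ((T_MK _ h).pow t).le (((T_MK _ h).pow u).le fun S => by
    rw [hz_T 1 h, pow_one]; exact mul_le_one₀ (bb1 h S) (nz0 S) (nz1 S)) _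

lemma Ysum_add (j : ℕ) {W : Finset V} (h : W.Nonempty) (M C u : ℕ) :
    Ysum j W (M + C) u ≤ Ysum j W M u + C := by
  unfold Ysum
  rw [sum_range_add]
  simpa using sum_le_card_nsmul (range C) _ 1 fun t _ => Yterm j h (M + t) u

lemma haz_sum {j : ℕ} (hj : 2 ≤ j) {W : Finset V} (h : W.Nonempty) {a : ℝ} (a0 : 0 < a) (M v : ℕ) :
    ∑ t ∈ range M, (T (j + 1) W ^ t) ((T j W ^ v) (hz (T j W))) Set.univ
      ≤ a * Ysum j W M v + a⁻¹ := by
  have k := (hz_sum (T_MK (j + 1) h) ((T_MK j h).pow v) M Set.univ).resolve_right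
    fun e => e ((T_comm _ _ _ _).pow_right v)
  have pt : hz (T j W) ≤ a • hz (T 1 W) + a⁻¹ • hz (T (j + 1) W) := fun S => by
    simp only [Pi.add_apply, Pi.smul_apply, smul_eq_mul, hz_T _ h, pow_one]
    rw [← mul_assoc, ← mul_assoc, ← add_mul]
    refine mul_le_mul_of_nonneg_right ?_ (nz0 S)
    have b0 := bb0 h S
    rcases le_total (bb W S) a with e | e
    · have : bb W S ^ j ≤ bb W S ^ 2 := pow_le_pow_of_le_one b0 (bb1 h S) hj
      have : 0 ≤ a⁻¹ * bb W S ^ (j + 1) := by positivity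
      nlinarith
    · have : bb W S ^ j ≤ a⁻¹ * bb W S ^ (j + 1) := by
        rw [le_inv_mul_iff₀ a0, pow_succ']; gcongr
      have : 0 ≤ a * bb W S := by positivity
      linarith
  refine le_trans (sum_le_sum fun t _ => ((T_MK _ h).pow t).pos _ _
    (((T_MK j h).pow v).pos _ _ pt) Set.univ) ?_
  simp only [map_add, map_smul, Pi.add_apply, Pi.smul_apply, smul_eq_mul, sum_add_distrib,
    ← mul_sum]
  have := mul_le_mul_of_nonneg_left k (inv_pos.mpr a0).le
  unfold Ysum
  linarith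

lemma cav_term (j : ℕ) {W : Finset V} {x : V} (hx : x ∈ W) (h' : (W.erase x).Nonempty)
    {S0 : Set (V → Bool)} (d0 : Dep {x} S0) (ne : S0 ≠ ∅) {η : ℝ} (hη : η = 1 / W.card) (t u : ℕ) :
    (T (j + 1) W ^ t) ((T j W ^ u) em) S0 - (T (j + 1) W ^ t) ((T j W ^ u) em) Set.univ
      ≤ t * (j ^ 2 * η ^ 2) + 2 * (u * (j * η)) + ∑ m ∈ antidiagonal t,
        (t.choose m.1 * ((1 - η) ^ (j + 1)) ^ m.1 * (1 - (1 - η) ^ (j + 1)) ^ m.2) *
          ∑ i ∈ range m.2, (T (j + 1) (W.erase x) ^ m.1) ((T j (W.erase x) ^ (u + i))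
            (hz (T j (W.erase x)))) Set.univ := by
  obtain ⟨W', hW'⟩ : ∃ W', W' = W.erase x := ⟨_, rfl⟩
  rw [← hW'] at h' ⊢
  have hW : W.Nonempty := ⟨x, hx⟩
  have dj : Disjoint W' {x} := by rw [hW']; simp
  have c1 : (W.card : ℝ) = W'.card + 1 := by rw [hW', ← card_erase_add_one hx]; push_cast; ring
  have c0 : (0 : ℝ) ≤ W'.card := by positivity
  have η0 : 0 ≤ η := by rw [hη]; positivity
  have η1 : η ≤ 1 := by rw [hη, div_le_one (by linarith)]; linarith
  have hQ : Q W = (1 - η) • Q W' + (1 - (1 - η)) • Q {x} := by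
    have e : W = W' ∪ {x} := by rw [hW', union_comm, ← insert_eq, insert_erase hx]
    have : 1 - η = (W'.card : ℝ) / (W'.card + ({x} : Finset V).card) := by
      have nz' : (W'.card : ℝ) + 1 ≠ 0 := ne_of_gt (by linarith)
      rw [hη, c1, card_singleton, Nat.cast_one, eq_div_iff nz', sub_mul,
        one_div_mul_cancel nz']; ring
    rw [this, ← Q_split dj h' (singleton_nonempty x), ← e]
  have q1 := Q_MK h'
  have q2 := Q_MK (singleton_nonempty x)
  have bern : ∀ i : ℕ, 1 - (1 - η) ^ i ≤ i * η := fun i => by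
    have := one_add_mul_le_pow (a := -η) (by linarith) i
    rw [sub_eq_add_neg 1 η]; linarith
  have p0 : ∀ i : ℕ, 0 ≤ (1 - η) ^ i := fun i => pow_nonneg (by linarith) _
  have p1 : ∀ i : ℕ, (1 - η) ^ i ≤ 1 := fun i => pow_le_one₀ (by linarith) (by linarith)
  obtain ⟨a, ha⟩ : ∃ a, a = (1 - η) ^ (j + 1) := ⟨_, rfl⟩
  rw [← ha]
  have a0 : 0 ≤ a := ha ▸ p0 _
  have a1 : a ≤ 1 := ha ▸ p1 _
  have mT := T_MK (j + 1) hW
  have mU := T_MK j hW
  have mA := T_MK (j + 1) h'
  have mB := T_MK j h'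
  have mX := mA.cvx mB a0 a1
  have mX' := mA.cvx MK.id a0 a1
  have low : ∀ (i : ℕ) (f : Set (V → Bool) → ℝ) (S : Set (V → Bool)) (c : ℝ), (∀ N, c ≤ f (S ∩ N)) →
      (1 - η) ^ i * T i W' f S + (1 - (1 - η) ^ i) * c ≤ T i W f S := fun i f S c hc => by
    rw [T_eq, T_eq]; exact Q_low q1 q2 η0 η1 hQ (fun N => hc _) i _
  have U1 := pow_le_pow_add mU mB (c := j * η) (fun f _ f0 f1 S => by
    have := low j ((fun _ => 1) - f) S 0 fun N => sub_nonneg.mpr (f1 _)
    rw [map_sub, map_sub, mU.one, mB.one] at this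
    simp only [Pi.sub_apply] at this
    have := mul_le_mul_of_nonneg_right (p1 j) (mB.ge f0 S)
    linarith [bern j]) em_anti em0 em1 u
  have U2 := pow_le_pow_add mB mU (c := j * η) (fun f _ f0 f1 S => by
    have := low j f S 0 fun N => f0 _
    have := mul_le_mul_of_nonneg_left (mB.le f1 S) (sub_nonneg.mpr (p1 j))
    linarith [bern j]) em_anti em0 em1 u
  have ha' := (mB.pow u).anti _ em_anti
  have h0 := (mB.pow u).ge em0
  have h1 := (mB.pow u).le em1
  have T1 := pow_le_pow_add mT mX (c := j ^ 2 * η ^ 2) (fun f fa f0 f1 S => by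
    simp only [LinearMap.add_apply, LinearMap.smul_apply, Pi.add_apply, Pi.smul_apply, smul_eq_mul]
    rw [T_eq, T_eq, T_eq, ha]
    refine Q_up q1 q2 η0 η1 hQ (fun g gm N => ?_) (fun N N' e => fa
      (Set.inter_subset_inter_right _ (Set.compl_subset_compl.mpr e))) (fun _ => f0 _)
      (fun _ => f1 _) j _
    have := q2.pos (shift N g) (fun _ => g N) (fun N' => gm Set.inter_subset_right) N
    rwa [q2.at, q2.one, Set.inter_self] at this) ha' h0 h1 t S0
  have T2 := pow_le_pow_add mX' mT (c := 0) (fun f fa _ _ S => by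
    simp only [LinearMap.add_apply, LinearMap.smul_apply, Pi.add_apply, Pi.smul_apply, smul_eq_mul,
      add_zero, ha]
    exact low (j + 1) f S (f S) fun N => fa Set.inter_subset_left) ha' h0 h1 t Set.univ
  have b1 := (mT.pow t).add_const U1 S0
  have b2 := (mT.pow t).add_const U2 Set.univ
  have bl := ((((T_pres (j + 1) W').lin (T_pres j W') a (1 - a)).pow t).mul
    ((T_pres j W').pow u)) S0 em em (fun S hS => dep_em dj.symm d0 hS ne) Set.univ (dep_univ _)
  rw [Set.inter_univ, Module.End.mul_apply] at bl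
  rw [bl, binom (T_comm _ _ _ _)] at T1
  rw [binom (Commute.one_right _)] at T2
  have e : ∀ m : ℕ × ℕ, ∑ i ∈ range m.2, (T (j + 1) W' ^ m.1) ((T j W' ^ (u + i)) (hz (T j W')))
      Set.univ = (T (j + 1) W' ^ m.1) ((T j W' ^ m.2) ((T j W' ^ u) em)) Set.univ
        - (T (j + 1) W' ^ m.1) (((1 : Op (V → Bool)) ^ m.2) ((T j W' ^ u) em)) Set.univ := fun m => by
    rw [one_pow, Module.End.one_apply, ← Pi.sub_apply, ← map_sub, ← pow_tel, map_sum,
      Finset.sum_apply]
    refine sum_congr rfl fun i _ => ?_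
    rw [hz, add_comm u i, pow_add, Module.End.mul_apply, map_sub (T j W' ^ u),
      ← Module.End.mul_apply (T j W' ^ u), ← pow_succ, pow_succ', Module.End.mul_apply]
  simp only [e, mul_sub, sum_sub_distrib]
  linarith

noncomputable def KY (j C : ℕ) : ℝ :=
  2 * (C ^ 2 * j ^ 2 + 2 * C * j + C + 2 * Real.exp (2 * (C * (j + 1))) ^ 2)

lemma Ybound {j : ℕ} (hj : 2 ≤ j) (C : ℕ) (n : ℕ) : ∀ W : Finset V, W.card = n + 1 → ∀ u,
    Ysum j W (C * (n + 1)) u ≤ KY j C * 2 ^ u := by
  obtain ⟨E, hE⟩ : ∃ E, E = Real.exp (2 * (C * (j + 1))) := ⟨_, rfl⟩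
  have E0 : 0 < E := hE ▸ Real.exp_pos _
  have hK : KY j C = 2 * (C ^ 2 * j ^ 2 + 2 * C * j + C + 2 * E ^ 2) := by rw [hE, KY]
  have K0 : 0 ≤ KY j C := by rw [hK]; positivity
  induction n with
  | zero =>
    intro W hW u
    have := Ysum_add j (card_pos.mp (by omega) : W.Nonempty) 0 C u
    simp only [Ysum, range_zero, sum_empty, zero_add, mul_one] at this ⊢
    refine this.trans (le_trans ?_ (le_mul_of_one_le_right K0 (one_le_pow₀ (by norm_num))))
    rw [hK]
    have : (0 : ℝ) ≤ C ^ 2 * j ^ 2 + 2 * C * j + 2 * E ^ 2 := by positivity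
    have : (0 : ℝ) ≤ C := by positivity
    linarith
  | succ n ih =>
    intro W hW u
    have hWn : W.Nonempty := card_pos.mp (by omega)
    obtain ⟨M, hM⟩ : ∃ M, M = C * (n + 1 + 1) := ⟨_, rfl⟩
    rw [← hM]
    obtain ⟨η, hη⟩ : ∃ η : ℝ, η = 1 / W.card := ⟨_, rfl⟩
    have Mη : M * η = C := by rw [hη, hM, hW]; push_cast; field_simp
    have η0 : 0 ≤ η := by rw [hη]; positivity
    have η1 : η ≤ 1 := by rw [hη, hW, div_le_one (by positivity)]; exact_mod_cast (by omega)
    have u2 : (u : ℝ) ≤ 2 ^ u := by exact_mod_cast Nat.lt_two_pow_self.le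
    have u1 : (1 : ℝ) ≤ 2 ^ u := one_le_pow₀ (by norm_num)
    have key : ∀ c ∈ Fintype.piFinset fun _ : Fin 1 => Lit W, ∑ t ∈ range M,
        ((T (j + 1) W ^ t) ((T j W ^ u) em) (satc c) - (T (j + 1) W ^ t) ((T j W ^ u) em) Set.univ)
        ≤ KY j C * 2 ^ u := by
      intro c hc
      have hx : (c 0).1 ∈ W := (mem_product.mp (Fintype.mem_piFinset.mp hc 0)).1
      have cW : (W.erase (c 0).1).card = n + 1 := by rw [card_erase_of_mem hx, hW]; rfl
      have h' : (W.erase (c 0).1).Nonempty := card_pos.mp (by omega)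
      have ne : satc c ≠ ∅ := Set.Nonempty.ne_empty ⟨fun _ => (c 0).2, by
        simp only [satc, fals, Set.mem_compl_iff, Set.mem_iInter, Set.mem_setOf_eq]
        exact fun h => h 0 rfl⟩
      refine (sum_le_sum fun t _ => cav_term j hx h' (dep_satc fun i => by
        rw [Subsingleton.elim i 0]; exact mem_singleton_self _) ne hη t u).trans ?_
      obtain ⟨W', hW'⟩ : ∃ W', W' = W.erase (c 0).1 := ⟨_, rfl⟩
      rw [← hW'] at cW h' ⊢
      obtain ⟨φ, hφ⟩ : ∃ φ : ℕ → ℕ → ℝ, φ = fun t v => (T (j + 1) W' ^ t) ((T j W' ^ v)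
        (hz (T j W'))) Set.univ := ⟨_, rfl⟩
      have φ0 : ∀ t v, 0 ≤ φ t v := fun t v => by
        rw [hφ]; exact ((T_MK _ h').pow t).ge (((T_MK _ h').pow v).ge (hz0 (T_MK _ h'))) _
      obtain ⟨B, hB⟩ : ∃ B, B = (2 * E)⁻¹ * (KY j C * 2 ^ u + C) + 2 * E := ⟨_, rfl⟩
      have B0 : 0 ≤ B := by rw [hB]; positivity
      have φ1 : ∀ i, ∑ t ∈ range M, φ t (u + i) ≤ 2 ^ i * B := fun i => by
        have a := haz_sum hj h' (a := (2 * E)⁻¹) (by positivity) M (u + i)
        have b := Ysum_add j h' (C * (n + 1)) C (u + i)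
        rw [show C * (n + 1) + C = M by rw [hM]; ring] at b
        have c := ih W' cW (u + i)
        have i1 : (1 : ℝ) ≤ 2 ^ i := one_le_pow₀ (by norm_num)
        rw [hφ]
        refine a.trans ?_
        rw [inv_inv, hB, mul_add, mul_left_comm]
        refine add_le_add (mul_le_mul_of_nonneg_left ?_ (by positivity))
          (le_mul_of_one_le_left (by positivity) i1)
        have : (C : ℝ) ≤ 2 ^ i * C := le_mul_of_one_le_left (by positivity) i1
        rw [pow_add] at c
        linarith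
      have s1 : ∑ t ∈ range M, ((t : ℝ) * (j ^ 2 * η ^ 2) + 2 * (u * (j * η)))
          ≤ (C : ℝ) ^ 2 * j ^ 2 + 2 * C * j * 2 ^ u := by
        refine (sum_le_card_nsmul _ _ ((M : ℝ) * (j ^ 2 * η ^ 2) + 2 * (2 ^ u * (j * η)))
          fun t ht => ?_).trans (le_of_eq ?_)
        · have : (t : ℝ) ≤ M := by exact_mod_cast (mem_range.mp ht).le
          gcongr
        · rw [card_range, nsmul_eq_mul, ← Mη]; ring
      have s2 : ∑ t ∈ range M, ∑ m ∈ antidiagonal t, (t.choose m.1 * ((1 - η) ^ (j + 1)) ^ m.1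
          * (1 - (1 - η) ^ (j + 1)) ^ m.2) * ∑ i ∈ range m.2, φ m.1 (u + i) ≤ E * B := by
        have p0 : 0 ≤ (1 - η) ^ (j + 1) := pow_nonneg (by linarith) _
        have p1 : (1 - η) ^ (j + 1) ≤ 1 := pow_le_one₀ (by linarith) (by linarith)
        have bern : 1 - (1 - η) ^ (j + 1) ≤ (j + 1) * η := by
          have := one_add_mul_le_pow (a := -η) (by linarith) (j + 1)
          rw [sub_eq_add_neg 1 η]; push_cast at this; linarith
        refine le_trans (sum_le_sum fun t ht => sum_le_sum (g := fun m : ℕ × ℕ =>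
          ((C : ℝ) * (j + 1)) ^ m.2 / m.2.factorial * ∑ i ∈ range m.2, φ m.1 (u + i)) fun m hm =>
            mul_le_mul_of_nonneg_right ?_ (sum_nonneg fun i _ => φ0 _ _))
          ((anti_sum _ (fun m => mul_nonneg (by positivity) (sum_nonneg fun i _ => φ0 _ _)) M).trans ?_)
        · have e := HasAntidiagonal.mem_antidiagonal.mp hm
          have a : (t.choose m.1 : ℝ) ≤ (M : ℝ) ^ m.2 / m.2.factorial := by
            rw [← e, Nat.choose_symm_add, e]
            refine (Nat.choose_le_pow_div _ _).trans ?_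
            gcongr
            exact (mem_range.mp ht).le
          have := sub_nonneg.mpr p1
          calc _ ≤ (M : ℝ) ^ m.2 / m.2.factorial * 1 * ((j + 1) * η) ^ m.2 := by
                gcongr; exact pow_le_one₀ p0 p1
            _ = _ := by rw [← Mη, mul_pow, mul_pow, mul_pow]; ring
        · calc _ ≤ ∑ d ∈ range M, (2 * ((C : ℝ) * (j + 1))) ^ d / d.factorial * B := by
                refine sum_le_sum fun d _ => ?_
                simp only
                rw [← mul_sum, sum_comm, mul_pow 2, mul_comm ((2 : ℝ) ^ d), mul_div_right_comm,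
                  mul_assoc]
                refine mul_le_mul_of_nonneg_left ((sum_le_sum fun i _ => φ1 i).trans ?_)
                  (by positivity)
                rw [← sum_mul]
                refine mul_le_mul_of_nonneg_right ?_ B0
                have := geom_sum_mul (2 : ℝ) d
                linarith
            _ ≤ _ := by
                rw [← sum_mul, hE]
                exact mul_le_mul_of_nonneg_right (Real.sum_le_exp_of_nonneg (by positivity) _) B0
      have s3 : E * B = (KY j C * 2 ^ u + C) / 2 + 2 * E ^ 2 := by rw [hB]; field_simp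
      rw [sum_add_distrib]
      simp only [hφ] at s2
      have t1 := mul_le_mul_of_nonneg_left u1
        (by positivity : (0 : ℝ) ≤ C ^ 2 * j ^ 2 + C + 2 * E ^ 2)
      have : (0 : ℝ) ≤ C := by positivity
      rw [hK] at s3 ⊢
      linarith
    have e : ∀ t, (T (j + 1) W ^ t) ((T j W ^ u) (hz (T 1 W))) Set.univ
        = ((Fintype.piFinset fun _ : Fin 1 => Lit W).card : ℝ)⁻¹ *
          ∑ c ∈ Fintype.piFinset fun _ : Fin 1 => Lit W, ((T (j + 1) W ^ t) ((T j W ^ u) em) (satc c)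
            - (T (j + 1) W ^ t) ((T j W ^ u) em) Set.univ) := fun t => by
      have c : ((Fintype.piFinset fun _ : Fin 1 => Lit W).card : ℝ) ≠ 0 := by
        exact_mod_cast (pi_ne 1 hWn).card_pos.ne'
      have cm : Commute (T (j + 1) W ^ t * T j W ^ u) (T 1 W) :=
        ((T_comm _ _ _ _).pow_left t).mul_left ((T_comm _ _ _ _).pow_left u)
      rw [← Module.End.mul_apply, hz, map_sub, ← Module.End.mul_apply, cm.eq, Module.End.mul_apply,
        Pi.sub_apply, sum_sub_distrib, sum_const, nsmul_eq_mul, mul_sub, inv_mul_cancel_left₀ c]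
      nth_rewrite 1 [T]
      rw [av_apply]
      simp
    simp only [Ysum, e]
    rw [← mul_sum, sum_comm, inv_mul_le_iff₀ (by exact_mod_cast (pi_ne 1 hWn).card_pos)]
    simpa using sum_le_card_nsmul _ _ _ key

end Vale.Agent.P170
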