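import Mathlib

namespace Vale.Agent.P170

/-- Proper `k`-clauses on `n` variables: sets of `k` literals on `k` distinct variables.
The literal `(x, s)` is true when the variable `x` has the value `s`. -/
def Clause (n k : ℕ) : Type :=
  {C : Finset (Fin n × Bool) // C.card = k ∧ Set.InjOn Prod.fst (C : Set (Fin n × Bool))}

/-- The conjunction of the clauses `F i` is satisfiable. -/
def Sat {n k m : ℕ} (F : Fin m → Clause n k) : Prop :=
  ∃ σ : Fin n → Bool, ∀ i, ∃ l ∈ (F i).1, σ l.1 = l.2

/-- The probability that `m` independent uniform proper `k`-clauses are satisfiable. -/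
noncomputable def satProb (k n m : ℕ) : ℝ :=
  (Nat.card {F : Fin m → Clause n k // Sat F} : ℝ) / (Nat.card (Fin m → Clause n k) : ℝ)

end Vale.Agent.P170
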