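import Vale.Agent.P170.Seq

namespace Vale.Agent.P170

open Finset Filter Topology

noncomputable def cr (n : ℕ) : ℝ := (n : ℝ) ^ (1 / 3 : ℝ)

lemma cr_cube (n : ℕ) : cr n ^ 3 = n := by
  rw [cr, ← Real.rpow_natCast, ← Real.rpow_mul (by positivity)]; norm_num

lemma cr_pos {n : ℕ} (h : 1 ≤ n) : 0 < cr n := Real.rpow_pos_of_pos (by exact_mod_cast h) _

lemma cr_one {n : ℕ} (h : 1 ≤ n) : 1 ≤ cr n := Real.one_le_rpow (by exact_mod_cast h) (by norm_num)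

lemma cr_tend (B : ℝ) : Tendsto (fun n => B / cr n) atTop (𝓝 0) :=
  tendsto_const_nhds.div_atTop ((tendsto_rpow_atTop (by norm_num)).comp tendsto_natCast_atTop_atTop)

lemma cr_div {n : ℕ} (h : 1 ≤ n) (B : ℝ) : B / cr n * n = B * cr n ^ 2 := by
  have := cr_pos h
  rw [← cr_cube n]; field_simp

lemma conv {f : ℕ → ℝ} {A C : ℝ} (A0 : 0 ≤ A)
    (H1 : ∀ n1 n2 : ℕ, 1 ≤ n1 → n1 ≤ n2 → n2 ≤ 2 * n1 → ∀ r : ℝ, r * n1 ≤ f n1 → r * n2 ≤ f n2 →
      r * (n1 + n2 : ℕ) - A * cr (n1 + n2) ^ 2 ≤ f (n1 + n2))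
    (H2 : ∀ n0, ∃ A', ∀ n1 s : ℕ, 1 ≤ n1 → 1 ≤ s → s ≤ n0 → f n1 - A' * cr (n1 + s) ^ 2 ≤ f (n1 + s))
    (H3 : ∀ n, 1 ≤ n → f n ≤ C * n) (H4 : ∃ n0, 1 ≤ n0 ∧ 10 * A * cr n0 ^ 2 < f n0) :
    ∃ α, 0 < α ∧ α ≤ C ∧ Tendsto (fun n => f n / n) atTop (𝓝 α) := by
  obtain ⟨L, hL⟩ : ∃ L : ℕ → ℝ, L = fun n => f n / n - 10 * A / cr n := ⟨_, rfl⟩
  have mult : ∀ n0, 1 ≤ n0 → ∀ j, 1 ≤ j →
      (L n0 + 10 * A / cr (j * n0)) * (j * n0 : ℕ) ≤ f (j * n0) := by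
    intro n0 h0 j
    induction j using Nat.strong_induction_on with
    | _ j ih =>
      intro hj
      rcases hj.eq_or_lt with rfl | hj
      · have : (n0 : ℝ) ≠ 0 := by positivity
        rw [hL, one_mul]; simp only; rw [sub_add_cancel, div_mul_cancel₀ _ this]
      have i1 := ih (j / 2) (by omega) (by omega)
      have i2 := ih (j - j / 2) (by omega) (by omega)
      obtain ⟨n1, e1⟩ : ∃ n1, n1 = j / 2 * n0 := ⟨_, rfl⟩
      obtain ⟨n2, e2⟩ : ∃ n2, n2 = (j - j / 2) * n0 := ⟨_, rfl⟩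
      have e : j * n0 = n1 + n2 := by rw [e1, e2, ← add_mul]; congr 1; omega
      have a1 : 1 ≤ n1 := by rw [e1]; exact Nat.mul_pos (by omega) h0
      have a2 : n1 ≤ n2 := by rw [e1, e2]; exact Nat.mul_le_mul_right _ (by omega)
      have a3 : n2 ≤ 2 * n1 := by rw [e1, e2, ← mul_assoc]; exact Nat.mul_le_mul_right _ (by omega)
      rw [← e1] at i1
      rw [← e2] at i2
      rw [e]
      have c1 := cr_pos a1
      have c2 := cr_pos (a1.trans a2)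
      have c3 := cr_pos (n := n1 + n2) (by omega)
      have m1 : cr n1 ≤ cr n2 := Real.rpow_le_rpow (by positivity) (by exact_mod_cast a2) (by norm_num)
      have m2 : 11 * cr n2 ≤ 10 * cr (n1 + n2) := by
        refine le_of_pow_le_pow_left₀ (n := 3) (by norm_num) (by positivity) ?_
        rw [mul_pow, mul_pow, cr_cube, cr_cube]
        have : (n2 : ℝ) ≤ 2 * n1 := by exact_mod_cast a3
        have : (0 : ℝ) ≤ n1 := by positivity
        push_cast; linarith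
      refine le_trans ?_ (H1 n1 n2 a1 a2 a3 _ (le_trans (by gcongr) i1) i2)
      rw [← cr_div (by omega), ← sub_mul]
      refine mul_le_mul_of_nonneg_right ?_ (by positivity)
      have : 11 * A / cr (n1 + n2) ≤ 10 * A / cr n2 := by
        rw [div_le_div_iff₀ c3 c2]; nlinarith
      have e : 11 * A / cr (n1 + n2) = 10 * A / cr (n1 + n2) + A / cr (n1 + n2) := by ring
      linarith
  have bd : ∀ n, 1 ≤ n → L n ≤ C := fun n hn => by
    have : f n / n ≤ C := by rw [div_le_iff₀ (by exact_mod_cast hn)]; exact H3 n hn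
    have : 0 ≤ 10 * A / cr n := by have := cr_pos hn; positivity
    rw [hL]; simp only; linarith
  have bb : BddAbove (L '' {n | 1 ≤ n}) := ⟨C, by rintro _ ⟨n, hn, rfl⟩; exact bd n hn⟩
  obtain ⟨n0, h0, h4⟩ := H4
  refine ⟨sSup (L '' {n | 1 ≤ n}), lt_of_lt_of_le ?_ (le_csSup bb ⟨n0, h0, rfl⟩),
    csSup_le ⟨_, n0, h0, rfl⟩ (by rintro _ ⟨n, hn, rfl⟩; exact bd n hn),
    tendsto_order.2 ⟨fun a ha => ?_, fun a ha => ?_⟩⟩
  · rw [hL]
    simp only
    rw [sub_pos, lt_div_iff₀ (by exact_mod_cast h0), cr_div h0]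
    exact h4
  · obtain ⟨_, ⟨m, hm, rfl⟩, hm'⟩ := exists_lt_of_lt_csSup
      (show (L '' {n | 1 ≤ n}).Nonempty from ⟨_, n0, h0, rfl⟩) ha
    obtain ⟨A', hA'⟩ := H2 m
    have t : Tendsto (fun n : ℕ => L m - |L m| * m / n - A' / cr n) atTop (𝓝 (L m - 0 - 0)) :=
      (tendsto_const_nhds.sub (tendsto_const_div_atTop_nhds_zero_nat _)).sub (cr_tend _)
    rw [sub_zero, sub_zero] at t
    filter_upwards [t.eventually (lt_mem_nhds hm'), eventually_gt_atTop m] with n h1 h2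
    have hm1 : 1 ≤ m := hm
    obtain ⟨j, s, hj, s1, s2, rfl⟩ : ∃ j s, 1 ≤ j ∧ 1 ≤ s ∧ s ≤ m ∧ n = j * m + s :=
      ⟨(n - 1) / m, (n - 1) % m + 1, Nat.div_pos (by omega) hm1, by omega,
        Nat.mod_lt _ hm1, by have := Nat.div_add_mod' (n - 1) m; omega⟩
    have b1 := mult m hm1 j hj
    have b2 := hA' (j * m) s (Nat.mul_pos hj hm1) s1 s2
    have np : (0 : ℝ) < (j * m + s : ℕ) := by exact_mod_cast (by omega)
    refine h1.trans_le ?_
    rw [le_div_iff₀ np, sub_mul, sub_mul, cr_div (by omega), div_mul_cancel₀ _ np.ne']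
    have : 0 ≤ 10 * A / cr (j * m) * (j * m : ℕ) := by
      have := cr_pos (Nat.mul_pos hj hm1); positivity
    have : L m * s ≤ |L m| * m :=
      mul_le_mul (le_abs_self _) (by exact_mod_cast s2) (by positivity) (abs_nonneg _)
    push_cast at *
    linarith
  · have t := (cr_tend (10 * A)).const_add (sSup (L '' {n | 1 ≤ n}))
    rw [add_zero] at t
    filter_upwards [t.eventually (gt_mem_nhds ha), eventually_ge_atTop 1] with n h1 h2
    have := le_csSup bb ⟨n, h2, rfl⟩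
    rw [hL] at this h1
    simp only at this
    linarith

noncomputable def mu (k n : ℕ) : ℕ := by classical exact Nat.find (p := fun t => pp k n t < 1 / 2) ⟨_, pp_le k n⟩

lemma mu_spec (k n : ℕ) : pp k n (mu k n) < 1 / 2 := by
  classical exact Nat.find_spec (p := fun t => pp k n t < 1 / 2) _

lemma mu_min {k n t : ℕ} (h : t < mu k n) : 1 / 2 ≤ pp k n t := by
  classical exact not_lt.mp (Nat.find_min (p := fun t => pp k n t < 1 / 2) _ h)

lemma mu_le (k n : ℕ) : mu k n ≤ 2 ^ (k + 1) * (n + 1) := by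
  classical exact Nat.find_min' (p := fun t => pp k n t < 1 / 2) _ (pp_le k n)

lemma mu_pos (k n : ℕ) : 0 < mu k n := Nat.pos_of_ne_zero fun h => by
  have := mu_spec k n
  rw [h, pp, pow_zero, Module.End.one_apply, nz_ne Set.univ_nonempty.ne_empty] at this
  norm_num at this

lemma cheb (t : ℕ) (a : ℝ) :
    ∑ m ∈ antidiagonal t, (t.choose m.1 * a ^ m.1 * (1 - a) ^ m.2) * (t * a - m.1) ^ 2
      = t * a * (1 - a) := by
  have := congrArg (Polynomial.eval a) (bernsteinPolynomial.variance ℝ t)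
  rw [Nat.sum_antidiagonal_eq_sum_range_succ_mk]
  simp only [bernsteinPolynomial, Polynomial.eval_finset_sum, Polynomial.eval_mul,
    Polynomial.eval_pow, Polynomial.eval_sub, Polynomial.eval_natCast, Polynomial.eval_X,
    Polynomial.eval_one, nsmul_eq_mul] at this
  rw [← this]
  exact sum_congr rfl fun i _ => by ring

lemma bsum (t : ℕ) (a b : ℝ) :
    ∑ m ∈ antidiagonal t, (t.choose m.1 * a ^ m.1 * b ^ m.2) = (a + b) ^ t := by
  rw [(Commute.all a b).add_pow']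
  exact sum_congr rfl fun m _ => by rw [nsmul_eq_mul]; ring

noncomputable def DD (j : ℕ) : ℝ := (2 ^ (j + 3) : ℕ) * (KY j (2 ^ (j + 3)) + 1)

lemma DD0 (j : ℕ) : 0 ≤ DD j := by unfold DD KY; positivity

lemma win' {j : ℕ} (hj : 2 ≤ j) (n : ℕ) {a b : ℕ} (hb : b < 2 ^ (j + 3) * (n + 1)) {δ : ℝ}
    (δ0 : 0 ≤ δ) (ha : pp (j + 1) n a ≤ 1 - δ) (hb' : δ ≤ pp (j + 1) n b) :
    δ * ((b : ℝ) - a) ≤ DD j * cr (n + 1) ^ 2 :=
  win hj Nat.one_le_two_pow n (cr_pos (by omega)) (by rw [cr_cube]; push_cast; ring) hb δ0 ha hb'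

lemma cheb2 (t : ℕ) (a K : ℝ) : ∑ m ∈ antidiagonal t, (t.choose m.1 * a ^ m.1 * (1 - a) ^ m.2)
        * (1 / 4 - (t * a - m.1) ^ 2 / K) = 1 / 4 - t * a * (1 - a) / K := by
  have h := bsum t a (1 - a)
  rw [add_sub_cancel, one_pow] at h
  have : ∀ X : ℝ, 1 / 4 - X = (∑ m ∈ antidiagonal t, (t.choose m.1 * a ^ m.1 * (1 - a) ^ m.2))
    * (1 / 4) - X := fun X => by rw [h, one_mul]
  rw [this (_ / K), ← cheb t a, sum_div, sum_mul, ← sum_sub_distrib]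
  exact sum_congr rfl fun m _ => by ring

lemma low1 (k n1 n2 t : ℕ) {a H : ℝ} (ha : a = (n1 + 1) / (n1 + 1 + (n2 + 1))) (a1 : a ≤ 1)
    (H0 : 0 < H) (hv : t * a * (1 - a) ≤ H ^ 2 / 2) (c1 : t * a + H ≤ mu k n1)
    (c2 : t * (1 - a) + H ≤ mu k n2) : 1 / 8 ≤ pp k (n1 + n2 + 1) t := by
  have a0 : 0 ≤ a := by rw [ha]; positivity
  refine le_trans ?_ (interp k n1 n2 t ha)
  refine le_trans ?_ ((cheb2 t a (4 * H ^ 2)).symm.le.trans
    (sum_le_sum fun m hm => mul_le_mul_of_nonneg_left ?_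
    (by have : 0 ≤ 1 - a := by linarith
        positivity)))
  · have : t * a * (1 - a) / (4 * H ^ 2) ≤ 1 / 8 := by
      rw [div_le_iff₀ (by positivity)]
      linarith
    linarith
  · have e : (m.1 : ℝ) + m.2 = t := by exact_mod_cast HasAntidiagonal.mem_antidiagonal.mp hm
    rcases lt_or_ge |t * a - m.1| H with h | h
    · have b := abs_lt.mp h
      have p1 := mu_min (k := k) (n := n1) (t := m.1) (by
        have : (m.1 : ℝ) < mu k n1 := by linarith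
        exact_mod_cast this)
      have p2 := mu_min (k := k) (n := n2) (t := m.2) (by
        have : (m.2 : ℝ) < mu k n2 := by linarith
        exact_mod_cast this)
      have : 0 ≤ (t * a - m.1) ^ 2 / (4 * H ^ 2) := by positivity
      nlinarith
    · have : 1 / 4 ≤ (t * a - m.1) ^ 2 / (4 * H ^ 2) := by
        rw [le_div_iff₀ (by positivity), ← sq_abs (t * a - m.1)]
        have := pow_le_pow_left₀ H0.le h 2
        linarith
      have := mul_nonneg (pp0 k n1 m.1) (pp0 k n2 m.2)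
      linarith

lemma step1 {j : ℕ} (hj : 2 ≤ j) (n1 n2 : ℕ) (h12 : n1 ≤ n2) (h21 : n2 + 1 ≤ 2 * (n1 + 1)) (r : ℝ)
    (r1 : r * (n1 + 1) ≤ mu (j + 1) n1) (r2 : r * (n2 + 1) ≤ mu (j + 1) n2) :
    r * (n1 + n2 + 2) - (6 * 2 ^ (j + 3) + 8 * DD j + 1) * cr (n1 + n2 + 2) ^ 2
      ≤ mu (j + 1) (n1 + n2 + 1) := by
  obtain ⟨s, hs⟩ : ∃ s, s = cr (n1 + n2 + 2) := ⟨_, rfl⟩
  have s1 : 1 ≤ s := hs ▸ cr_one (by omega)
  have s3 : s ^ 3 = n1 + n2 + 2 := by rw [hs, cr_cube]; push_cast; ring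
  obtain ⟨C, hC⟩ : ∃ C : ℝ, C = 2 ^ (j + 3) := ⟨_, rfl⟩
  have C1 : 1 ≤ C := hC ▸ one_le_pow₀ (by norm_num)
  have D0 := DD0 j
  rw [← hs, ← hC]
  obtain ⟨N, hN⟩ : ∃ N : ℝ, N = n1 + n2 + 2 := ⟨_, rfl⟩
  rw [← hN] at s3 ⊢
  have s2 : 1 ≤ s ^ 2 := one_le_pow₀ s1
  rcases le_total (r * N - 6 * C * s ^ 2) 0 with h | h
  · have : (0 : ℝ) ≤ mu (j + 1) (n1 + n2 + 1) := by positivity
    nlinarith
  obtain ⟨t, ht⟩ : ∃ t, t = ⌊r * N - 6 * C * s ^ 2⌋₊ := ⟨_, rfl⟩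
  have t1 : (t : ℝ) ≤ r * N - 6 * C * s ^ 2 := ht ▸ Nat.floor_le h
  have t2 : r * N - 6 * C * s ^ 2 < t + 1 := ht ▸ Nat.lt_floor_add_one _
  have n1' : (0 : ℝ) ≤ n1 := by positivity
  have h12' : (n1 : ℝ) ≤ n2 := by exact_mod_cast h12
  have h21' : (n2 : ℝ) + 1 ≤ 2 * (n1 + 1) := by exact_mod_cast h21
  have N0 : 0 < N := by rw [hN]; positivity
  have rC : r ≤ C := by
    have : (mu (j + 1) n1 : ℝ) ≤ 2 ^ (j + 1 + 1) * (n1 + 1) := by exact_mod_cast mu_le (j + 1) n1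
    have := le_of_mul_le_mul_right (r1.trans this) (by positivity)
    rw [hC]
    exact this.trans (pow_le_pow_right₀ (by norm_num) (by omega))
  have tC : (t : ℝ) < C * N := by nlinarith
  obtain ⟨a, ha⟩ : ∃ a : ℝ, a = (n1 + 1) / (n1 + 1 + (n2 + 1)) := ⟨_, rfl⟩
  have aN : a * N = n1 + 1 := by rw [ha, hN]; field_simp; ring
  have a1 : 1 / 3 ≤ a := by refine le_of_mul_le_mul_right ?_ N0; rw [aN, hN]; linarith
  have a2 : a ≤ 1 / 2 := by refine le_of_mul_le_mul_right ?_ N0; rw [aN, hN]; linarith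
  obtain ⟨H, hH⟩ : ∃ H, H = 2 * C * s ^ 2 := ⟨_, rfl⟩
  have H0 : 0 < H := by rw [hH]; positivity
  have low : 1 / 8 ≤ pp (j + 1) (n1 + n2 + 1) t := by
    have c1 := mul_le_mul_of_nonneg_right t1 (by linarith : 0 ≤ a)
    have c2 := mul_le_mul_of_nonneg_right t1 (by linarith : 0 ≤ 1 - a)
    have c3 := mul_le_mul_of_nonneg_left a1 H0.le
    have c4 := mul_le_mul_of_nonneg_left a2 H0.le
    have e1 : r * N * a = r * (n1 + 1) := by rw [← aN]; ring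
    have e2 : r * N * (1 - a) = r * (n2 + 1) := by rw [mul_sub, e1, hN]; ring
    have e3 : 6 * C * s ^ 2 = 3 * H := by rw [hH]; ring
    rw [e3, sub_mul] at c1 c2
    refine low1 _ n1 n2 t ha (by linarith) H0 ?_ (by linarith) (by linarith)
    rw [hH]
    have b1 : a * (1 - a) ≤ 1 := by nlinarith
    have b2 := mul_le_mul_of_nonneg_left b1 t.cast_nonneg
    have b3 : s ^ 3 ≤ s ^ 4 := pow_le_pow_right₀ s1 (by norm_num)
    have b4 : C * s ^ 3 ≤ C ^ 2 * s ^ 4 := mul_le_mul (by nlinarith) b3 (by positivity) (by positivity)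
    rw [s3] at b4
    have : 0 ≤ C * N := by positivity
    linarith
  have w := win' hj (n1 + n2 + 1) (a := mu (j + 1) (n1 + n2 + 1)) (b := t) (by
    have : (t : ℝ) < (2 ^ (j + 3) * (n1 + n2 + 1 + 1) : ℕ) := by
      push_cast; rw [← hC]; convert tC using 2; rw [hN]; ring
    exact_mod_cast this) (δ := 1 / 8) (by norm_num) (by linarith [mu_spec (j + 1) (n1 + n2 + 1)]) low
  rw [← hs] at w
  linarith

lemma step2 {j : ℕ} (hj : 2 ≤ j) (n0 : ℕ) : ∃ A' : ℝ, ∀ n1 s : ℕ, s + 1 ≤ n0 →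
    mu (j + 1) n1 - A' * cr (n1 + s + 2) ^ 2 ≤ mu (j + 1) (n1 + s + 1) := by
  obtain ⟨δ, hδ⟩ : ∃ δ : ℝ, δ = Real.exp (-(2 ^ (j + 2) * n0)) / 2 := ⟨_, rfl⟩
  have δ0 : 0 < δ := by rw [hδ]; positivity
  have δ1 : δ ≤ 1 / 2 := by
    rw [hδ]; gcongr; exact Real.exp_le_one_iff.mpr (neg_nonpos.mpr (by positivity))
  refine ⟨DD j / δ + 1, fun n1 s hs => ?_⟩
  obtain ⟨t, ht⟩ : ∃ t, t + 1 = mu (j + 1) n1 := ⟨_, Nat.succ_pred_eq_of_pos (mu_pos _ _)⟩
  have t1 : t + 1 ≤ 2 ^ (j + 2) * (n1 + 1) := ht ▸ mu_le (j + 1) n1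
  obtain ⟨a, ha⟩ : ∃ a : ℝ, a = (n1 + 1) / (n1 + 1 + (s + 1)) := ⟨_, rfl⟩
  have a0 : 0 ≤ a := by rw [ha]; positivity
  have a1 : a ≤ 1 := by rw [ha, div_le_one (by positivity)]; linarith [s.cast_nonneg (α := ℝ)]
  have low : δ ≤ pp (j + 1) (n1 + s + 1) t := by
    refine le_trans ?_ (interp (j + 1) n1 s t ha)
    refine le_trans ?_ (sum_le_sum (f := fun m : ℕ × ℕ =>
      (t.choose m.1 * a ^ m.1 * ((1 - a) / 2) ^ m.2) * (1 / 2)) fun m hm => ?_)
    · rw [← sum_mul, bsum, hδ, div_eq_mul_one_div (Real.exp _)]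
      refine mul_le_mul_of_nonneg_right ?_ (by norm_num)
      have b1 : Real.exp (-(1 - a)) ≤ a + (1 - a) / 2 := by
        have h1 := Real.add_one_le_exp (1 - a)
        rw [Real.exp_neg, inv_le_iff_one_le_mul₀ (Real.exp_pos _)]
        nlinarith
      refine le_trans ?_ (pow_le_pow_left₀ (Real.exp_pos _).le b1 t)
      rw [← Real.exp_nat_mul, Real.exp_le_exp, mul_neg, neg_le_neg_iff]
      have e : 1 - a = (s + 1) / (n1 + 1 + (s + 1)) := by rw [ha]; field_simp; ring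
      have t2 : (t : ℝ) ≤ 2 ^ (j + 2) * (n1 + 1 + (s + 1)) := by
        have : t ≤ 2 ^ (j + 2) * (n1 + 1 + (s + 1)) := by nlinarith [Nat.zero_le (2 ^ (j + 2))]
        exact_mod_cast this
      have s2 : (s : ℝ) + 1 ≤ n0 := by exact_mod_cast hs
      rw [e, ← mul_div_assoc, div_le_iff₀ (by positivity)]
      calc _ ≤ 2 ^ (j + 2) * (n1 + 1 + (s + 1)) * (n0 : ℝ) := by gcongr
        _ = _ := by ring
    · have e := HasAntidiagonal.mem_antidiagonal.mp hm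
      have p1 := mu_min (k := j + 1) (n := n1) (t := m.1) (by omega)
      have p2 := pp_ge (k := j + 1) (by omega) s m.2
      have : 0 ≤ 1 - a := by linarith
      rw [div_eq_mul_one_div (1 - a), mul_pow, ← mul_assoc, mul_assoc _ _ (1 / 2 : ℝ), mul_comm _ (1 / 2 : ℝ)]
      exact mul_le_mul_of_nonneg_left (mul_le_mul p1 p2 (by positivity) (pp0 _ _ _)) (by positivity)
  have w := win' hj (n1 + s + 1) (a := mu (j + 1) (n1 + s + 1)) (b := t) (by
    have : 2 ^ (j + 2) * (n1 + 1) ≤ 2 ^ (j + 3) * (n1 + s + 1 + 1) :=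
      Nat.mul_le_mul (Nat.pow_le_pow_right (by norm_num) (by omega)) (by omega)
    omega) δ0.le (by linarith [mu_spec (j + 1) (n1 + s + 1)]) low
  have c := one_le_pow₀ (n := 2) (cr_one (n := n1 + s + 2) (by omega))
  rw [← ht, add_mul, div_mul_eq_mul_div]
  rw [← le_div_iff₀' δ0] at w
  push_cast
  linarith

lemma step4 {k : ℕ} (hk : 3 ≤ k) (B : ℝ) : ∃ n, B * cr (n + 1) ^ 2 < mu k n := by
  obtain ⟨b, hb⟩ := exists_nat_gt (max B 1)
  have b1 : 1 ≤ b := by exact_mod_cast ((le_max_right _ _).trans hb.le)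
  obtain ⟨y, hy⟩ : ∃ y, y = 2 * b ^ 4 * k ^ 3 := ⟨_, rfl⟩
  have y1 : 1 ≤ y := by rw [hy]; exact Nat.succ_le_of_lt (by positivity)
  obtain ⟨n, hn⟩ : ∃ n, n + 1 = y ^ 3 := ⟨_, Nat.succ_pred_eq_of_pos (by positivity)⟩
  have c : cr (n + 1) = y := by
    rw [hn, cr, Nat.cast_pow, ← Real.rpow_natCast, ← Real.rpow_mul (by positivity)]; norm_num
  refine ⟨n, ?_⟩
  have e := early k (W := (univ : Finset (Fin (n + 1)))) univ_nonempty (k * (b * y ^ 2)) (b * y ^ 2)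
    ∅ _ (dep_univ _) Set.univ_nonempty.ne_empty (by simp)
  have y0 : (0 : ℝ) < y := by exact_mod_cast y1
  have b0 : (1 : ℝ) ≤ b := by exact_mod_cast b1
  have k0 : (1 : ℝ) ≤ k := by exact_mod_cast (by omega)
  have hy' : (y : ℝ) = 2 * b ^ 4 * k ^ 3 := by exact_mod_cast hy
  have e1 : ((k * (b * y ^ 2) : ℕ) : ℝ) / (univ : Finset (Fin (n + 1))).card = k * b / y := by
    rw [card_univ, Fintype.card_fin, hn]; push_cast; field_simp
  rw [e1] at e
  have e2 : (k : ℝ) * b / y ≤ 1 := by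
    rw [div_le_one y0, hy']
    have := le_self_pow₀ b0 (n := 4) (by norm_num)
    have := le_self_pow₀ k0 (n := 3) (by norm_num)
    nlinarith [mul_le_mul ‹(b : ℝ) ≤ b ^ 4› ‹(k : ℝ) ≤ k ^ 3› (by positivity) (by positivity)]
  have e3 : ((b * y ^ 2 : ℕ) : ℝ) * ((k : ℝ) * b / y) ^ 3 = 1 / 2 := by
    push_cast; field_simp; rw [hy']; ring
  have e4 := mul_le_mul_of_nonneg_left (pow_le_pow_of_le_one (by positivity) e2 hk)
    (b * y ^ 2 : ℕ).cast_nonneg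
  have p : 1 / 2 ≤ pp k n (b * y ^ 2) := by rw [pp, ((mk k n).pow _).nz]; linarith
  have q : b * y ^ 2 < mu k n := by
    by_contra h
    linarith [pp_anti k n (not_lt.mp h), mu_spec k n]
  have q' : (b : ℝ) * y ^ 2 < mu k n := by exact_mod_cast q
  rw [c]
  have := mul_le_mul_of_nonneg_right ((le_max_left _ _).trans hb.le) (sq_nonneg (y : ℝ))
  linarith

lemma mu_conv {j : ℕ} (hj : 2 ≤ j) : ∃ α : ℝ, 0 < α ∧ α ≤ 2 ^ (j + 2) ∧
    Tendsto (fun n : ℕ => (mu (j + 1) n : ℝ) / (n + 1 : ℕ)) atTop (𝓝 α) := by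
  obtain ⟨A, hA⟩ : ∃ A : ℝ, A = 6 * 2 ^ (j + 3) + 8 * DD j + 1 := ⟨_, rfl⟩
  obtain ⟨f, hf⟩ : ∃ f : ℕ → ℝ, ∀ n, f (n + 1) = mu (j + 1) n :=
    ⟨fun n => mu (j + 1) (n - 1), fun n => by simp⟩
  have A0 : 0 ≤ A := by have := DD0 j; rw [hA]; positivity
  obtain ⟨α, h1, h2, h3⟩ := conv (f := f) (C := 2 ^ (j + 2)) A0
    (fun n1 n2 a1 a2 a3 r r1 r2 => by
      obtain ⟨n1, rfl⟩ := Nat.exists_eq_add_of_le' a1
      obtain ⟨n2, rfl⟩ := Nat.exists_eq_add_of_le' (a1.trans a2)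
      rw [hf, Nat.cast_succ] at r1 r2
      have := step1 hj n1 n2 (by omega) a3 r r1 r2
      rw [show n1 + 1 + (n2 + 1) = n1 + n2 + 1 + 1 by ring, hf, hA]
      push_cast
      rw [add_assoc ((n1 : ℝ) + n2), one_add_one_eq_two]
      exact this)
    (fun n0 => by
      obtain ⟨A', h⟩ := step2 hj n0
      refine ⟨A', fun n1 s a1 a2 a3 => ?_⟩
      obtain ⟨n1, rfl⟩ := Nat.exists_eq_add_of_le' a1
      obtain ⟨s, rfl⟩ := Nat.exists_eq_add_of_le' a2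
      rw [show n1 + 1 + (s + 1) = n1 + s + 1 + 1 by ring, hf, hf]
      exact h n1 s a3)
    (fun n hn => by
      obtain ⟨n, rfl⟩ := Nat.exists_eq_add_of_le' hn
      rw [hf]
      exact_mod_cast mu_le (j + 1) n)
    (by
      obtain ⟨n, hn⟩ := step4 (k := j + 1) (by omega) (10 * A)
      exact ⟨n + 1, by omega, by rw [hf]; exact hn⟩)
  refine ⟨α, h1, h2, ?_⟩
  have := (tendsto_add_atTop_iff_nat 1).mpr h3
  simpa only [hf] using this

end Vale.Agent.P170
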