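import Vale.Agent.P170.Lim
import Vale.Agent.P170.Defs

namespace Vale.Agent.P170

open Finset Filter Topology

lemma gap {j : ℕ} {δ γ : ℝ} (δ0 : 0 < δ) (γ0 : 0 < γ) {g : ℕ → ℝ}
    (hg : Tendsto (fun n : ℕ => g n / (n + 1 : ℕ)) atTop (𝓝 γ)) :
    ∀ᶠ n in atTop, DD j * cr (n + 1) ^ 2 < δ * (g n - 1) := by
  have t : Tendsto (fun n : ℕ => δ * (g n / (n + 1 : ℕ) - 1 / (n + 1 : ℕ)) - DD j / cr (n + 1))
      atTop (𝓝 (δ * (γ - 0) - 0)) :=
    ((hg.sub ((tendsto_add_atTop_iff_nat 1).mpr (tendsto_const_div_atTop_nhds_zero_nat 1))).const_mul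
      δ).sub ((tendsto_add_atTop_iff_nat (f := fun n => DD j / cr n) 1).mpr (cr_tend _))
  rw [sub_zero, sub_zero] at t
  filter_upwards [t.eventually (lt_mem_nhds (mul_pos δ0 γ0))] with n h
  have np : (0 : ℝ) < (n + 1 : ℕ) := by positivity
  rw [← cr_div (by omega), ← lt_div_iff₀ np, mul_div_assoc, sub_div]
  linarith

lemma pp_lim {j : ℕ} (hj : 2 ≤ j) : ∃ α : ℝ, 0 < α ∧
    (∀ c : ℝ, 0 ≤ c → c < α → Tendsto (fun n : ℕ => pp (j + 1) n ⌊c * (n + 1 : ℕ)⌋₊) atTop (𝓝 1)) ∧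
    (∀ c : ℝ, α < c → Tendsto (fun n : ℕ => pp (j + 1) n ⌊c * (n + 1 : ℕ)⌋₊) atTop (𝓝 0)) := by
  obtain ⟨α, h1, h2, h3⟩ := mu_conv hj
  have q : ∀ c : ℝ, Tendsto (fun n : ℕ => c * (n + 1 : ℕ) / (n + 1 : ℕ)) atTop (𝓝 c) := fun c =>
    tendsto_const_nhds.congr fun n => by rw [mul_div_cancel_right₀ _ (by positivity)]
  have lt : ∀ n, 2 ^ (j + 2) * (n + 1) ≤ 2 ^ (j + 3) * (n + 1) := fun n =>
    Nat.mul_le_mul_right _ (Nat.pow_le_pow_right (by norm_num) (by omega))
  refine ⟨α, h1, fun c c0 hc => tendsto_order.2 ⟨fun a ha => ?_, fun a ha =>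
    Eventually.of_forall fun n => (pp1 _ _ _).trans_lt ha⟩, fun c hc => tendsto_order.2
    ⟨fun a ha => Eventually.of_forall fun n => ha.trans_le (pp0 _ _ _), fun a ha => ?_⟩⟩
  · have δ0 : 0 < min (1 - a) (1 / 2) := lt_min (by linarith) (by norm_num)
    filter_upwards [gap (j := j) δ0 (sub_pos.mpr hc) (g := fun n => mu (j + 1) n - c * (n + 1 : ℕ))
      ((h3.sub (q c)).congr fun n => by rw [sub_div])] with n h
    by_contra e
    obtain ⟨t, ht⟩ : ∃ t, t + 1 = mu (j + 1) n := ⟨_, Nat.succ_pred_eq_of_pos (mu_pos _ _)⟩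
    have w := win' hj n (a := ⌊c * (n + 1 : ℕ)⌋₊) (b := t)
      (by have := mu_le (j + 1) n; have := lt n; rw [show j + 1 + 1 = j + 2 from rfl] at *; omega) δ0.le
      (by linarith [min_le_left (1 - a) (1 / 2), not_lt.mp e])
      ((min_le_right _ _).trans (mu_min (by omega)))
    have f := Nat.floor_le (a := c * (n + 1 : ℕ)) (by positivity)
    rw [← ht, Nat.cast_succ t] at h
    have := mul_le_mul_of_nonneg_left f δ0.le
    linarith
  · have δ0 : 0 < min a (1 / 2) := lt_min ha (by norm_num)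
    obtain ⟨c', hc'⟩ : ∃ c', c' = min c (2 ^ (j + 2) + 1) := ⟨_, rfl⟩
    have c1 : α < c' := by rw [hc']; exact lt_min hc (by linarith)
    have c2 : c' ≤ c := hc' ▸ min_le_left _ _
    have c3 : c' < 2 ^ (j + 3) := by
      have : (2 : ℝ) ^ 1 ≤ 2 ^ (j + 2) := pow_le_pow_right₀ (by norm_num) (by omega)
      rw [hc', pow_succ _ (j + 2)]; exact (min_le_right _ _).trans_lt (by linarith)
    filter_upwards [gap (j := j) δ0 (sub_pos.mpr c1) (g := fun n => c' * (n + 1 : ℕ) - mu (j + 1) n)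
      (((q c').sub h3).congr fun n => by rw [sub_div])] with n h
    by_contra e
    have np : (0 : ℝ) < (n + 1 : ℕ) := by positivity
    have w := win' hj n (a := mu (j + 1) n) (b := ⌊c' * (n + 1 : ℕ)⌋₊)
      ((Nat.floor_lt (by have := h1.trans c1; positivity)).mpr (by
        rw [Nat.cast_mul, Nat.cast_pow]; exact mul_lt_mul_of_pos_right c3 np)) δ0.le
      (by linarith [min_le_right a (1 / 2), mu_spec (j + 1) n])
      ((min_le_left _ _).trans ((not_lt.mp e).trans (pp_anti _ _ (Nat.floor_le_floor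
        (mul_le_mul_of_nonneg_right c2 np.le)))))
    have f := Nat.lt_floor_add_one (c' * (n + 1 : ℕ))
    have := mul_le_mul_of_nonneg_left f.le δ0.le
    linarith

noncomputable instance (n k : ℕ) : Fintype (Clause n k) := by
  classical unfold Clause; infer_instance

def ZC {n k : ℕ} (C : Clause n k) : Set (Fin n → Bool) := {σ | ∃ l ∈ C.1, σ l.1 = l.2}

noncomputable def Tp (n k : ℕ) : Op (Fin n → Bool) := av (univ : Finset (Clause n k)) ZC

noncomputable def ph {n k : ℕ} (p : Clause n k × Equiv.Perm (Fin k)) (i : Fin k) : Fin n × Bool :=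
  (p.1.1.equivFinOfCardEq p.1.2.1).symm (p.2 i)

lemma ph_mem {n k : ℕ} (p : Clause n k × Equiv.Perm (Fin k)) (l : Fin n × Bool) :
    l ∈ p.1.1 ↔ ∃ i, ph p i = l :=
  ⟨fun h => ⟨p.2.symm (p.1.1.equivFinOfCardEq p.1.2.1 ⟨l, h⟩), by simp [ph]⟩,
    by rintro ⟨i, rfl⟩; exact Subtype.property _⟩

lemma ph_inj {n k : ℕ} : Function.Injective (ph (n := n) (k := k)) := by
  rintro ⟨C, π⟩ ⟨C', π'⟩ h
  obtain rfl : C = C' := Subtype.ext (Finset.ext fun l => by
    rw [ph_mem (C, π), ph_mem (C', π'), h])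
  refine Prod.ext rfl (Equiv.ext fun i => ?_)
  exact (C.1.equivFinOfCardEq C.2.1).symm.injective (Subtype.ext (congrFun h i))

lemma ph_surj {n k : ℕ} (q : (Fin k ↪ Fin n) × (Fin k → Bool)) :
    ∃ p, ph p = fun i => (q.1 i, q.2 i) := by
  have inj : Function.Injective fun i => (q.1 i, q.2 i) := fun i i' h =>
    q.1.injective (congrArg Prod.fst h)
  obtain ⟨C, hC⟩ : ∃ C : Clause n k, C.1 = univ.image fun i => (q.1 i, q.2 i) :=
    ⟨⟨univ.image fun i => (q.1 i, q.2 i), by rw [card_image_of_injective _ inj]; simp, by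
      intro l hl l' hl' h
      simp only [coe_image, coe_univ, Set.image_univ, Set.mem_range] at hl hl'
      obtain ⟨i, rfl⟩ := hl
      obtain ⟨i', rfl⟩ := hl'
      rw [q.1.injective h]⟩, rfl⟩
  have m : ∀ i, (q.1 i, q.2 i) ∈ C.1 := fun i => hC ▸ mem_image_of_mem _ (mem_univ i)
  refine ⟨(C, Equiv.ofBijective (fun i => C.1.equivFinOfCardEq C.2.1 ⟨_, m i⟩)
    (Finite.injective_iff_bijective.mp fun i i' h => inj (congrArg Subtype.val
      ((C.1.equivFinOfCardEq C.2.1).injective h)))), ?_⟩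
  ext1 i
  simp [ph]

lemma card_ge (n k : ℕ) : n.descFactorial k * 2 ^ k ≤ Fintype.card (Clause n k) * k.factorial := by
  choose g hg using ph_surj (n := n) (k := k)
  have := Fintype.card_le_of_injective g fun q q' h => by
    have e := hg q
    rw [h, hg q'] at e
    exact Prod.ext (Function.Embedding.ext fun i => (congrArg Prod.fst (congrFun e i)).symm)
      (funext fun i => (congrArg Prod.snd (congrFun e i)).symm)
  simpa [Fintype.card_perm] using this

lemma T_ge {n k : ℕ} (hk : 2 * k ≤ n + 1) {f : Set (Fin (n + 1) → Bool) → ℝ} (f0 : ∀ S, 0 ≤ f S)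
    (S : Set (Fin (n + 1) → Bool)) :
    Real.exp (-(2 * k / (n + 1 : ℕ))) ^ k * Tp (n + 1) k f S ≤ T k univ f S := by
  classical
  have np : (0 : ℝ) < (n + 1 : ℕ) := by positivity
  have hk' : (2 * k : ℝ) ≤ (n + 1 : ℕ) := by exact_mod_cast hk
  have a : Real.exp (-(2 * k / (n + 1 : ℕ))) * (n + 1 : ℕ) ≤ (n + 1 + 1 - k : ℕ) := by
    rw [Nat.cast_sub (by omega), Real.exp_neg, inv_mul_le_iff₀ (Real.exp_pos _), Nat.cast_succ (n + 1)]
    refine le_trans ?_ (mul_le_mul_of_nonneg_right (Real.add_one_le_exp _) (by linarith))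
    rw [div_add_one np.ne', div_mul_eq_mul_div, le_div_iff₀ np]
    nlinarith [mul_nonneg k.cast_nonneg (sub_nonneg.mpr hk')]
  have b : (((n + 1 + 1 - k : ℕ) : ℝ)) ^ k * 2 ^ k
      ≤ Fintype.card (Clause (n + 1) k) * k.factorial := by
    exact_mod_cast (Nat.mul_le_mul_right _ (Nat.pow_sub_le_descFactorial _ _)).trans (card_ge _ _)
  have c : ∑ p : Clause (n + 1) k × Equiv.Perm (Fin k), f (S ∩ ZC p.1)
      ≤ ∑ c ∈ Fintype.piFinset fun _ : Fin k => Lit univ, f (S ∩ satc c) := by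
    refine le_trans (le_of_eq ?_) (sum_le_sum_of_subset_of_nonneg (s := univ.image ph)
      (fun c _ => by simp [Lit]) fun _ _ _ => f0 _)
    rw [sum_image ph_inj.injOn]
    refine sum_congr rfl fun p _ => ?_
    congr 2
    ext σ
    simp only [ZC, ph_mem, satc, fals]
    simp
  rw [Fintype.sum_prod_type] at c
  simp only [sum_const, card_univ, Fintype.card_perm, Fintype.card_fin, nsmul_eq_mul,
    ← mul_sum] at c
  rw [Tp, T, av_apply, av_apply, Fintype.card_piFinset, prod_const, Lit_card]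
  simp only [card_univ, Fintype.card_fin]
  refine le_trans ?_ (mul_le_mul_of_nonneg_left c (by positivity))
  rw [← mul_assoc, ← mul_assoc]
  refine mul_le_mul_of_nonneg_right ?_ (sum_nonneg fun _ _ => f0 _)
  rcases (Fintype.card (Clause (n + 1) k)).eq_zero_or_pos with h | h
  · rw [h]; simp only [Nat.cast_zero, inv_zero, mul_zero]; positivity
  rw [← div_eq_mul_inv, ← div_eq_inv_mul, div_le_div_iff₀ (by exact_mod_cast h) (by positivity),
    mul_comm (k.factorial : ℝ), Nat.cast_pow, Nat.cast_mul, mul_pow, ← mul_assoc, ← mul_pow]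
  refine le_trans ?_ b
  gcongr
  norm_num

lemma Tp_mk {n k : ℕ} (hk : k ≤ n) : MK (Tp n k) := by
  refine MK.av (univ_nonempty_iff.mpr (Fintype.card_pos_iff.mp ?_)) _
  have := card_ge n k
  have : 0 < n.descFactorial k * 2 ^ k := Nat.mul_pos (Nat.descFactorial_pos.mpr hk) (by positivity)
  exact Nat.pos_of_mul_pos_right (this.trans_le ‹_›)

lemma T_pow_ge {n k : ℕ} (hk : 2 * k ≤ n + 1) {f : Set (Fin (n + 1) → Bool) → ℝ} (f0 : ∀ S, 0 ≤ f S)
    (m : ℕ) (S : Set (Fin (n + 1) → Bool)) :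
    (Real.exp (-(2 * k / (n + 1 : ℕ))) ^ k) ^ m * (Tp (n + 1) k ^ m) f S ≤ (T k univ ^ m) f S := by
  induction m generalizing S with
  | zero => simp
  | succ m ih =>
    have := (mk k n).pos ((Real.exp (-(2 * k / (n + 1 : ℕ))) ^ k) ^ m • (Tp (n + 1) k ^ m) f) _ ih S
    rw [pow_succ' (T k univ), pow_succ' (Tp (n + 1) k), Module.End.mul_apply, Module.End.mul_apply,
      pow_succ, mul_assoc]
    refine le_trans ?_ this
    rw [map_smul]
    exact mul_le_mul_of_nonneg_left (T_ge hk (((Tp_mk (by omega)).pow m).ge f0) S) (by positivity)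

lemma satProb_eq (k n m : ℕ) : satProb k n m = (Tp n k ^ m) nz Set.univ := by
  classical
  rw [Tp, av_pow, satProb, Fintype.piFinset_univ, Nat.card_eq_fintype_card, Nat.card_eq_fintype_card,
    Fintype.card_subtype, card_filter, div_eq_inv_mul]
  congr 1
  · simp
  · push_cast
    refine sum_congr rfl fun F _ => ?_
    have : Sat F ↔ Set.univ ∩ ⋂ i, ZC (F i) ≠ ∅ := by
      rw [← Set.nonempty_iff_ne_empty, Set.univ_inter]
      simp [Sat, ZC, Set.Nonempty]
    split_ifs with h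
    · rw [nz_ne (this.mp h)]
    · rw [not_not.mp (this.not.mp h), nz_empty]

lemma transfer (k : ℕ) {c : ℝ} (c0 : 0 ≤ c) {n : ℕ} (hk : 2 * k ≤ n + 1)
    {f : Set (Fin (n + 1) → Bool) → ℝ} (f0 : ∀ S, 0 ≤ f S) :
    (Tp (n + 1) k ^ ⌊c * (n + 1 : ℕ)⌋₊) f Set.univ
      ≤ Real.exp (2 * k ^ 2 * c) * (T k univ ^ ⌊c * (n + 1 : ℕ)⌋₊) f Set.univ := by
  have np : (0 : ℝ) < (n + 1 : ℕ) := by positivity
  refine le_trans ?_ (mul_le_mul_of_nonneg_left (T_pow_ge hk f0 _ _) (Real.exp_pos _).le)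
  rw [← mul_assoc]
  refine le_mul_of_one_le_left (((Tp_mk (by omega)).pow _).ge f0 _) ?_
  rw [← Real.exp_nat_mul, ← Real.exp_nat_mul, ← Real.exp_add]
  refine Real.one_le_exp ?_
  have f := Nat.floor_le (a := c * (n + 1 : ℕ)) (by positivity)
  rw [← div_le_iff₀ np] at f
  have := mul_le_mul_of_nonneg_left f (by positivity : (0 : ℝ) ≤ 2 * k ^ 2)
  have e : (⌊c * (n + 1 : ℕ)⌋₊ : ℝ) * (k * -(2 * k / (n + 1 : ℕ)))
    = -(2 * k ^ 2 * (⌊c * (n + 1 : ℕ)⌋₊ / (n + 1 : ℕ))) := by ring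
  linarith

theorem main (k : ℕ) (hk : 3 ≤ k) : ∃ α : ℝ, 0 < α ∧
    (∀ c : ℝ, 0 ≤ c → c < α → Tendsto (fun n : ℕ => satProb k n ⌊c * n⌋₊) atTop (𝓝 1)) ∧
    (∀ c : ℝ, α < c → Tendsto (fun n : ℕ => satProb k n ⌊c * n⌋₊) atTop (𝓝 0)) := by
  obtain ⟨j, rfl⟩ : ∃ j, k = j + 1 := ⟨k - 1, by omega⟩
  obtain ⟨α, h1, h2, h3⟩ := pp_lim (j := j) (by omega)
  refine ⟨α, h1, fun c c0 hc => (tendsto_add_atTop_iff_nat 1).mp ?_,
    fun c hc => (tendsto_add_atTop_iff_nat 1).mp ?_⟩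
  · have t := ((h2 c c0 hc).const_sub 1).const_mul (Real.exp (2 * (j + 1 : ℕ) ^ 2 * c)) |>.const_sub 1
    rw [sub_self, mul_zero, sub_zero] at t
    refine tendsto_of_tendsto_of_tendsto_of_le_of_le' t tendsto_const_nhds ?_ ?_
    · filter_upwards [eventually_ge_atTop (2 * (j + 1))] with n hn
      have := transfer (j + 1) c0 (n := n) (by omega) em0
      rw [satProb_eq, ((Tp_mk (by omega)).pow _).nz, pp, ((mk _ n).pow _).nz, sub_sub_cancel]
      linarith
    · filter_upwards [eventually_ge_atTop (2 * (j + 1))] with n hn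
      rw [satProb_eq]
      exact ((Tp_mk (by omega)).pow _).le nz1 _
  · have t := (h3 c hc).const_mul (Real.exp (2 * (j + 1 : ℕ) ^ 2 * c))
    rw [mul_zero] at t
    refine tendsto_of_tendsto_of_tendsto_of_le_of_le' tendsto_const_nhds t ?_ ?_
    · exact Eventually.of_forall fun n => by unfold satProb; positivity
    · filter_upwards [eventually_ge_atTop (2 * (j + 1))] with n hn
      rw [satProb_eq]
      exact transfer (j + 1) (h1.trans hc).le (n := n) (by omega) nz0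

end Vale.Agent.P170
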