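import Mathlib

namespace Vale.Agent.P170

open Finset

variable {A : Type}

abbrev Op (A : Type) := Module.End ℝ (Set A → ℝ)

def shift (Z : Set A) : Op A := LinearMap.funLeft ℝ ℝ fun S => S ∩ Z

@[simp] lemma shift_apply (Z : Set A) (f : Set A → ℝ) (S : Set A) : shift Z f S = f (S ∩ Z) := rfl

noncomputable def av {ι : Type} (I : Finset ι) (Z : ι → Set A) : Op A :=
  ((I.card : ℝ)⁻¹) • ∑ i ∈ I, shift (Z i)

lemma av_apply {ι : Type} (I : Finset ι) (Z : ι → Set A) (f : Set A → ℝ) (S : Set A) :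
    av I Z f S = (I.card : ℝ)⁻¹ * ∑ i ∈ I, f (S ∩ Z i) := by
  simp [av, LinearMap.sum_apply, Finset.sum_apply]

lemma shift_comm (Z Z' : Set A) : Commute (shift Z) (shift Z') := by
  ext f S
  simp [Set.inter_right_comm]

lemma av_shift {ι : Type} (I : Finset ι) (Z : ι → Set A) (Z' : Set A) :
    Commute (av I Z) (shift Z') :=
  (Commute.sum_left _ _ _ fun _ _ => shift_comm _ _).smul_left _

lemma av_comm {ι κ : Type} (I : Finset ι) (Z : ι → Set A) (J : Finset κ) (Z' : κ → Set A) :
    Commute (av I Z) (av J Z') :=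
  (Commute.sum_right _ _ _ fun _ _ => av_shift _ _ _).smul_right _

structure MK (L : Op A) : Prop where
  pos : ∀ f g, f ≤ g → L f ≤ L g
  one : ∀ c : ℝ, L (fun _ => c) = fun _ => c
  anti : ∀ f, Antitone f → Antitone (L f)
  mono : ∀ f, Monotone f → Monotone (L f)
  sh : ∀ Z, Commute L (shift Z)

lemma MK.id : MK (1 : Op A) :=
  ⟨fun _ _ h => h, fun _ => rfl, fun _ h => h, fun _ h => h, fun _ => Commute.one_left _⟩

lemma MK.mul {L L' : Op A} (h : MK L) (h' : MK L') : MK (L * L') :=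
  ⟨fun _ _ e => h.pos _ _ (h'.pos _ _ e), fun c => by rw [Module.End.mul_apply, h'.one, h.one],
    fun _ e => h.anti _ (h'.anti _ e), fun _ e => h.mono _ (h'.mono _ e),
    fun Z => (h.sh Z).mul_left (h'.sh Z)⟩

lemma MK.pow {L : Op A} (h : MK L) (t : ℕ) : MK (L ^ t) := by
  induction t with
  | zero => exact MK.id
  | succ t ih => rw [pow_succ]; exact ih.mul h

lemma MK.cvx {L L' : Op A} (h : MK L) (h' : MK L') {a : ℝ} (a0 : 0 ≤ a) (a1 : a ≤ 1) :
    MK (a • L + (1 - a) • L') := by
  have b0 : 0 ≤ 1 - a := by linarith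
  refine ⟨fun f g e S => ?_, fun c => ?_, fun f e S S' hS => ?_, fun f e S S' hS => ?_,
    fun Z => ((h.sh Z).smul_left _).add_left ((h'.sh Z).smul_left _)⟩
  · exact add_le_add (mul_le_mul_of_nonneg_left (h.pos _ _ e S) a0)
      (mul_le_mul_of_nonneg_left (h'.pos _ _ e S) b0)
  · ext S
    simp only [LinearMap.add_apply, LinearMap.smul_apply, h.one, h'.one, Pi.add_apply,
      Pi.smul_apply, smul_eq_mul]
    ring
  · exact add_le_add (mul_le_mul_of_nonneg_left (h.anti _ e hS) a0)
      (mul_le_mul_of_nonneg_left (h'.anti _ e hS) b0)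
  · exact add_le_add (mul_le_mul_of_nonneg_left (h.mono _ e hS) a0)
      (mul_le_mul_of_nonneg_left (h'.mono _ e hS) b0)

lemma av_pos {ι : Type} (I : Finset ι) (Z : ι → Set A) (f g : Set A → ℝ) (e : f ≤ g) :
    av I Z f ≤ av I Z g := fun S => by
  rw [av_apply, av_apply]
  exact mul_le_mul_of_nonneg_left (sum_le_sum fun i _ => e _) (by positivity)

lemma MK.av {ι : Type} {I : Finset ι} (hI : I.Nonempty) (Z : ι → Set A) : MK (av I Z) := by
  refine ⟨av_pos I Z, fun c => ?_, fun f e S S' hS => ?_, fun f e S S' hS => ?_, av_shift I Z⟩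
  · ext S
    have : (I.card : ℝ) ≠ 0 := by exact_mod_cast hI.card_pos.ne'
    rw [av_apply, sum_const, nsmul_eq_mul]; field_simp
  · rw [av_apply, av_apply]
    exact mul_le_mul_of_nonneg_left (sum_le_sum fun i _ => e (Set.inter_subset_inter_left _ hS))
      (by positivity)
  · rw [av_apply, av_apply]
    exact mul_le_mul_of_nonneg_left (sum_le_sum fun i _ => e (Set.inter_subset_inter_left _ hS))
      (by positivity)

lemma MK.le {L : Op A} (h : MK L) {f : Set A → ℝ} {c : ℝ} (e : ∀ S, f S ≤ c) (S : Set A) :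
    L f S ≤ c := by
  have := h.pos f (fun _ => c) e S
  rwa [h.one] at this

lemma MK.ge {L : Op A} (h : MK L) {f : Set A → ℝ} {c : ℝ} (e : ∀ S, c ≤ f S) (S : Set A) :
    c ≤ L f S := by
  have := h.pos (fun _ => c) f e S
  rwa [h.one] at this

lemma MK.add_const {L : Op A} (h : MK L) {f g : Set A → ℝ} {c : ℝ} (e : ∀ S, f S ≤ g S + c)
    (S : Set A) : L f S ≤ L g S + c := by
  have := h.pos f (g + fun _ => c) e S
  rwa [map_add, h.one] at this

lemma MK.at {L : Op A} (h : MK L) (f : Set A → ℝ) (S Z : Set A) :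
    L (shift Z f) S = L f (S ∩ Z) := by
  rw [← Module.End.mul_apply, (h.sh Z).eq]; rfl

lemma MK.empty {L : Op A} (h : MK L) (f : Set A → ℝ) : L f ∅ = f ∅ := by
  have := h.at f ∅ ∅
  rw [Set.inter_self] at this
  rw [← this, show shift ∅ f = fun _ => f ∅ by ext; simp, h.one]

lemma MK.sq {L : Op A} (h : MK L) (f : Set A → ℝ) (a : ℝ) (S : Set A) :
    L (fun S => (f S - a) ^ 2) S = L (fun S => f S ^ 2) S - 2 * a * L f S + a ^ 2 := by
  have : (fun S => (f S - a) ^ 2) = (fun S => f S ^ 2) - (2 * a) • f + fun _ => a ^ 2 := by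
    ext S; simp; ring
  rw [this, map_add, map_sub, map_smul, h.one]
  simp

lemma MK.jensen {L : Op A} (h : MK L) (f : Set A → ℝ) (S : Set A) :
    L f S ^ 2 ≤ L (fun S => f S ^ 2) S := by
  have := h.ge (f := fun S' => (f S' - L f S) ^ 2) (fun _ => sq_nonneg _) S
  rw [h.sq] at this
  linarith

lemma av_pow {ι : Type} [DecidableEq ι] (I : Finset ι) (Z : ι → Set A) (t : ℕ) (f : Set A → ℝ)
    (S : Set A) : (av I Z ^ t) f S
      = ((I.card : ℝ) ^ t)⁻¹ * ∑ c ∈ Fintype.piFinset fun _ : Fin t => I, f (S ∩ ⋂ i, Z (c i)) := by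
  induction t generalizing S with
  | zero => simp
  | succ t ih =>
    rw [pow_succ', Module.End.mul_apply, av_apply]
    simp only [ih]
    rw [← mul_sum, ← mul_assoc, ← mul_inv, ← pow_succ', ← sum_product']
    congr 1
    refine sum_nbij' (fun p => Fin.cons p.1 p.2) (fun c => (c 0, Fin.tail c)) ?_ ?_ ?_ ?_ ?_
    · intro p hp
      simp only [mem_product, Fintype.mem_piFinset] at hp ⊢
      intro i
      refine Fin.cases ?_ (fun i => ?_) i
      · simpa using hp.1
      · simpa using hp.2 i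
    · intro c hc
      simp only [mem_product, Fintype.mem_piFinset] at hc ⊢
      exact ⟨hc 0, fun i => hc _⟩
    · intro p _; simp
    · intro c _; simp
    · intro p _
      congr 1
      ext σ
      simp [Fin.forall_fin_succ, and_assoc]

lemma pow_tel (L : Op A) (f : Set A → ℝ) (r : ℕ) :
    ∑ s ∈ range r, (L ^ s) (L f - f) = (L ^ r) f - f := by
  induction r with
  | zero => simp
  | succ r ih => rw [sum_range_succ, ih, map_sub, pow_succ, Module.End.mul_apply]; abel

lemma sum_succ (L : Op A) (f : Set A → ℝ) (r : ℕ) :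
    ∑ s ∈ range (r + 1), (L ^ s) f = f + L (∑ s ∈ range r, (L ^ s) f) := by
  rw [sum_range_succ', map_sum, add_comm]
  simp [pow_succ']

lemma pow_le_pow_add {L X : Op A} (hL : MK L) (hX : MK X) {c : ℝ}
    (h : ∀ f, Antitone f → (∀ S, 0 ≤ f S) → (∀ S, f S ≤ 1) → ∀ S, L f S ≤ X f S + c)
    {f : Set A → ℝ} (fa : Antitone f) (f0 : ∀ S, 0 ≤ f S) (f1 : ∀ S, f S ≤ 1) (t : ℕ) (S : Set A) :
    (L ^ t) f S ≤ (X ^ t) f S + t * c := by
  induction t generalizing S with
  | zero => simp
  | succ t ih =>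
    rw [pow_succ', pow_succ', Module.End.mul_apply, Module.End.mul_apply]
    have a := hL.add_const ih S
    have b := h _ ((hX.pow t).anti f fa) ((hX.pow t).ge f0) ((hX.pow t).le f1) S
    push_cast; linarith

lemma intertwine {B : Type} {L : Op A} {L' : Op B} (r : B → A)
    (h : ∀ f S, L' f (r ⁻¹' S) = L (fun S => f (r ⁻¹' S)) S) (t : ℕ) (f : Set B → ℝ) (S : Set A) :
    (L' ^ t) f (r ⁻¹' S) = (L ^ t) (fun S => f (r ⁻¹' S)) S := by
  induction t generalizing S with
  | zero => rfl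
  | succ t ih =>
    rw [pow_succ', pow_succ', Module.End.mul_apply, Module.End.mul_apply, h]
    simp only [ih]

open Classical in
noncomputable def em (S : Set A) : ℝ := if S = ∅ then 1 else 0

lemma em0 (S : Set A) : 0 ≤ em S := by unfold em; split_ifs <;> norm_num
lemma em1 (S : Set A) : em S ≤ 1 := by unfold em; split_ifs <;> norm_num
lemma em_anti : Antitone (em : Set A → ℝ) := fun S S' h => by
  by_cases e : S' = ∅
  · subst e; rw [Set.subset_empty_iff.mp h]
  · rw [em, if_neg e]; exact em0 _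

noncomputable def nz (S : Set A) : ℝ := 1 - em S

lemma nz0 (S : Set A) : 0 ≤ nz S := by have := em1 S; unfold nz; linarith
lemma nz1 (S : Set A) : nz S ≤ 1 := by have := em0 S; unfold nz; linarith
@[simp] lemma em_empty : em (∅ : Set A) = 1 := if_pos rfl
@[simp] lemma nz_empty : nz (∅ : Set A) = 0 := by simp [nz]
lemma em_ne {S : Set A} (h : S ≠ ∅) : em S = 0 := if_neg h
lemma nz_ne {S : Set A} (h : S ≠ ∅) : nz S = 1 := by simp [nz, em_ne h]
lemma nz_mono : Monotone (nz : Set A → ℝ) := fun S S' h => by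
  have := em_anti h; unfold nz; linarith

lemma MK.nz {L : Op A} (h : MK L) (S : Set A) : L nz S = 1 - L em S := by
  have : (P170.nz : Set A → ℝ) = (fun _ => 1) - em := rfl
  rw [this, map_sub, h.one]; rfl

end Vale.Agent.P170
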