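import Vale.Agent.P170.Var

namespace Vale.Agent.P170

open Finset

variable {V : Type} [DecidableEq V]

def fals (l : V × Bool) : Set (V → Bool) := {σ | σ l.1 ≠ l.2}

def Lit (W : Finset V) : Finset (V × Bool) := W ×ˢ univ

noncomputable def Q (W : Finset V) : Op (V → Bool) := av (Lit W) fals

def satc {j : ℕ} (c : Fin j → V × Bool) : Set (V → Bool) := (⋂ i, fals (c i))ᶜ

noncomputable def T (j : ℕ) (W : Finset V) : Op (V → Bool) :=
  av (Fintype.piFinset fun _ : Fin j => Lit W) satc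

omit [DecidableEq V] in
lemma Lit_card (W : Finset V) : (Lit W).card = W.card * 2 := by simp [Lit]

omit [DecidableEq V] in
lemma Lit_ne {W : Finset V} (h : W.Nonempty) : (Lit W).Nonempty := h.product univ_nonempty

omit [DecidableEq V] in
lemma Q_MK {W : Finset V} (h : W.Nonempty) : MK (Q W) := MK.av (Lit_ne h) _

lemma pi_ne (j : ℕ) {W : Finset V} (h : W.Nonempty) :
    (Fintype.piFinset fun _ : Fin j => Lit W).Nonempty :=
  Fintype.piFinset_nonempty.mpr fun _ => Lit_ne h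

lemma T_MK (j : ℕ) {W : Finset V} (h : W.Nonempty) : MK (T j W) := MK.av (pi_ne j h) _

lemma T_comm (j j' : ℕ) (W W' : Finset V) : Commute (T j W) (T j' W') := av_comm _ _ _ _

lemma T_eq (j : ℕ) (W : Finset V) (f : Set (V → Bool) → ℝ) (S : Set (V → Bool)) :
    T j W f S = (Q W ^ j) (fun N => f (S ∩ Nᶜ)) Set.univ := by
  rw [T, Q, av_apply, av_pow]
  simp [satc]

open Classical in
noncomputable def bb (W : Finset V) (S : Set (V → Bool)) : ℝ :=
  Q W (fun N => if S ⊆ N then 1 else 0) Set.univ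

open Classical in
omit [DecidableEq V] in
lemma Q_sub (W : Finset V) (S : Set (V → Bool)) (j : ℕ) :
    (Q W ^ j) (fun N => if S ⊆ N then (1 : ℝ) else 0)
      = bb W S ^ j • fun N => if S ⊆ N then (1 : ℝ) else 0 := by
  induction j with
  | zero => simp
  | succ j ih =>
    rw [pow_succ', Module.End.mul_apply, ih, map_smul, pow_succ, mul_smul]
    congr 1
    ext N
    simp only [bb, Q, av_apply, Pi.smul_apply, smul_eq_mul, Set.subset_inter_iff, Set.univ_inter]
    by_cases h : S ⊆ N <;> simp [h]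

lemma T_em (j : ℕ) (W : Finset V) (S : Set (V → Bool)) : T j W em S = bb W S ^ j := by
  classical
  rw [T_eq]
  have : (fun N => em (S ∩ Nᶜ)) = fun N => if S ⊆ N then (1 : ℝ) else 0 := by
    ext N
    simp only [em, ← Set.diff_eq, Set.diff_eq_empty]
  rw [this, Q_sub]
  simp

omit [DecidableEq V] in
lemma bb0 {W : Finset V} (h : W.Nonempty) (S : Set (V → Bool)) : 0 ≤ bb W S :=
  (Q_MK h).ge (fun _ => by split_ifs <;> norm_num) _

omit [DecidableEq V] in
lemma bb1 {W : Finset V} (h : W.Nonempty) (S : Set (V → Bool)) : bb W S ≤ 1 :=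
  (Q_MK h).le (fun _ => by split_ifs <;> norm_num) _

lemma hz_T (j : ℕ) {W : Finset V} (h : W.Nonempty) (S : Set (V → Bool)) :
    hz (T j W) S = bb W S ^ j * nz S := by
  by_cases e : S = ∅
  · rw [e, hz_empty (T_MK j h), nz_empty, mul_zero]
  · rw [hz_ne (T_MK j h) e, T_em, nz_ne e, mul_one]

lemma Q_split {W1 W2 : Finset V} (hd : Disjoint W1 W2) (h1 : W1.Nonempty) (h2 : W2.Nonempty) :
    Q (W1 ∪ W2) = ((W1.card : ℝ) / (W1.card + W2.card)) • Q W1
      + (1 - (W1.card : ℝ) / (W1.card + W2.card)) • Q W2 := by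
  ext f S
  have c1 : (0 : ℝ) < W1.card := by exact_mod_cast h1.card_pos
  have c2 : (0 : ℝ) < W2.card := by exact_mod_cast h2.card_pos
  simp only [Q, LinearMap.add_apply, LinearMap.smul_apply, Pi.add_apply, Pi.smul_apply, av_apply,
    Lit_card, card_union_of_disjoint hd, smul_eq_mul]
  rw [Lit, union_product, sum_union (disjoint_product.mpr (Or.inl hd))]
  simp only [Lit]
  push_cast
  field_simp
  ring

def Dep (U : Finset V) (S : Set (V → Bool)) : Prop :=
  ∀ σ τ : V → Bool, (∀ x ∈ U, σ x = τ x) → σ ∈ S → τ ∈ S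

omit [DecidableEq V] in
lemma Dep.inter {U : Finset V} {S S' : Set (V → Bool)} (h : Dep U S) (h' : Dep U S') :
    Dep U (S ∩ S') := fun σ τ e m => ⟨h σ τ e m.1, h' σ τ e m.2⟩

omit [DecidableEq V] in
lemma Dep.mono {U U' : Finset V} {S : Set (V → Bool)} (h : Dep U S) (e : U ⊆ U') : Dep U' S :=
  fun σ τ e' => h σ τ fun x hx => e' x (e hx)

omit [DecidableEq V] in
lemma dep_univ (U : Finset V) : Dep U Set.univ := fun _ _ _ _ => trivial

omit [DecidableEq V] in
lemma dep_satc {j : ℕ} {U : Finset V} {c : Fin j → V × Bool} (h : ∀ i, (c i).1 ∈ U) :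
    Dep U (satc c) := fun σ τ e m => by
  simp only [satc, fals, Set.mem_compl_iff, Set.mem_iInter, Set.mem_setOf_eq] at m ⊢
  exact fun h' => m fun i => by rw [e _ (h i)]; exact h' i

lemma dep_em {U U' : Finset V} (hd : Disjoint U U') {S S' : Set (V → Bool)} (h : Dep U S)
    (h' : Dep U' S') (ne : S ≠ ∅) : em (S ∩ S') = em S' := by
  by_cases e : S' = ∅
  · simp [e]
  · obtain ⟨σ, hσ⟩ := Set.nonempty_iff_ne_empty.mpr ne
    obtain ⟨τ, hτ⟩ := Set.nonempty_iff_ne_empty.mpr e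
    rw [em_ne e, em_ne (Set.Nonempty.ne_empty (s := S ∩ S') ⟨fun x => if x ∈ U then σ x else τ x,
      h σ _ (fun x hx => by simp [hx]) hσ,
      h' τ _ (fun x hx => by simp [disjoint_right.mp hd hx]) hτ⟩)]

def Pres (U : Finset V) (L : Op (V → Bool)) : Prop :=
  ∀ S0 f g, (∀ S, Dep U S → f (S0 ∩ S) = g S) → ∀ S, Dep U S → L f (S0 ∩ S) = L g S

omit [DecidableEq V] in
lemma Pres.mul {U : Finset V} {L L' : Op (V → Bool)} (h : Pres U L) (h' : Pres U L') :
    Pres U (L * L') := fun S0 f g e => h S0 _ _ (h' S0 f g e)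

omit [DecidableEq V] in
lemma Pres.pow {U : Finset V} {L : Op (V → Bool)} (h : Pres U L) (t : ℕ) : Pres U (L ^ t) := by
  induction t with
  | zero => exact fun _ _ _ e => e
  | succ t ih => rw [pow_succ]; exact ih.mul h

omit [DecidableEq V] in
lemma Pres.lin {U : Finset V} {L L' : Op (V → Bool)} (h : Pres U L) (h' : Pres U L') (a b : ℝ) :
    Pres U (a • L + b • L') := fun S0 f g e S hS => by
  simp [h S0 f g e S hS, h' S0 f g e S hS]

lemma T_pres (j : ℕ) (W : Finset V) : Pres W (T j W) := fun S0 f g e S hS => by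
  simp only [T, av_apply]
  congr 1
  refine sum_congr rfl fun c hc => ?_
  rw [Set.inter_assoc]
  exact e _ (hS.inter (dep_satc fun i => (mem_product.mp (Fintype.mem_piFinset.mp hc i)).1))

section cav
variable {Q0 Q1 Q2 : Op (V → Bool)} (h1 : MK Q1) (h2 : MK Q2) {η : ℝ} (η0 : 0 ≤ η) (η1 : η ≤ 1)
  (hQ : Q0 = (1 - η) • Q1 + (1 - (1 - η)) • Q2)
include h1 h2 η0 η1 hQ

omit [DecidableEq V] in
lemma Q_low {g : Set (V → Bool) → ℝ} {c : ℝ} (hg : ∀ N, c ≤ g N) (j : ℕ) (N : Set (V → Bool)) :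
    (1 - η) ^ j * (Q1 ^ j) g N + (1 - (1 - η) ^ j) * c ≤ (Q0 ^ j) g N := by
  have h0 : MK Q0 := hQ ▸ h1.cvx h2 (by linarith) (by linarith)
  induction j generalizing N with
  | zero => simp
  | succ j ih =>
    have a := h1.pos (((1 - η) ^ j) • (Q1 ^ j) g + fun _ => (1 - (1 - η) ^ j) * c) _ ih N
    have b := h2.ge ((h0.pow j).ge hg) N
    rw [map_add, map_smul, h1.one] at a
    rw [pow_succ' Q0, pow_succ' Q1, Module.End.mul_apply, Module.End.mul_apply]
    nth_rewrite 1 [hQ]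
    simp only [LinearMap.add_apply, LinearMap.smul_apply, Pi.add_apply, Pi.smul_apply,
      smul_eq_mul] at a ⊢
    have := mul_le_mul_of_nonneg_left a (by linarith : 0 ≤ 1 - η)
    have := mul_le_mul_of_nonneg_left b η0
    rw [pow_succ]
    linarith

omit [DecidableEq V] in
lemma Q_up (h2' : ∀ g, Monotone g → Q2 g ≤ g) {g : Set (V → Bool) → ℝ} (gm : Monotone g)
    (g0 : ∀ N, 0 ≤ g N) (g1 : ∀ N, g N ≤ 1) (j : ℕ) (N : Set (V → Bool)) :
    (Q0 ^ (j + 1)) g N ≤ (1 - η) ^ (j + 1) * (Q1 ^ (j + 1)) g N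
      + (1 - (1 - η) ^ (j + 1)) * (Q1 ^ j) g N + j ^ 2 * η ^ 2 := by
  have h0 : MK Q0 := hQ ▸ h1.cvx h2 (by linarith) (by linarith)
  have one : ∀ g, Monotone g → ∀ N, Q0 g N ≤ (1 - η) * Q1 g N + η * g N := fun g gm N => by
    have := mul_le_mul_of_nonneg_left (h2' g gm N) η0
    rw [hQ]
    simp only [LinearMap.add_apply, LinearMap.smul_apply, Pi.add_apply, Pi.smul_apply,
      smul_eq_mul]
    linarith
  induction j generalizing N with
  | zero => simpa using one g gm N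
  | succ j ih =>
    obtain ⟨a, ha⟩ : ∃ a, a = (1 - η) ^ (j + 1) := ⟨_, rfl⟩
    have a0 : 0 ≤ a := by rw [ha]; exact pow_nonneg (by linarith) _
    have a1 : a ≤ 1 := by rw [ha]; exact pow_le_one₀ (by linarith) (by linarith)
    have a2 : 1 - (j + 1 : ℕ) * η ≤ a := by
      have := one_add_mul_le_pow (a := -η) (by linarith) (j + 1)
      rw [ha, sub_eq_add_neg 1 η]; linarith
    rw [← ha] at ih
    have b := h0.add_const (g := a • (Q1 ^ (j + 1)) g + (1 - a) • (Q1 ^ j) g) ih N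
    rw [map_add, map_smul, map_smul] at b
    have c1 := mul_le_mul_of_nonneg_left (one _ ((h1.pow (j + 1)).mono g gm) N) a0
    have c2 := mul_le_mul_of_nonneg_left (one _ ((h1.pow j).mono g gm) N) (by linarith : 0 ≤ 1 - a)
    have d0 := (h1.pow (j + 1)).ge g0 N
    have d1 := (h1.pow j).le g1 N
    rw [pow_succ' Q0 (j + 1), pow_succ' Q1 (j + 1), Module.End.mul_apply, Module.End.mul_apply,
      pow_succ (1 - η) (j + 1), ← ha]
    have e : Q1 ((Q1 ^ j) g) N = (Q1 ^ (j + 1)) g N := by rw [pow_succ']; rfl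
    rw [e] at c2
    simp only [Pi.add_apply, Pi.smul_apply, smul_eq_mul] at b
    have f1 := mul_nonneg (mul_nonneg η0 (sub_nonneg.mpr a1)) d0
    have f2 := mul_le_mul_of_nonneg_left d1 (mul_nonneg η0 (sub_nonneg.mpr a1))
    have f3 := mul_le_mul_of_nonneg_left a2 η0
    have f4 : 0 ≤ (j : ℝ) * η ^ 2 := by positivity
    push_cast at f3 ⊢
    nlinarith

end cav

end Vale.Agent.P170
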