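import Vale.Agent.P170.Cav

namespace Vale.Agent.P170

open Finset

variable {V : Type} [DecidableEq V]

lemma relabel {V' : Type} [DecidableEq V'] (ι : V ↪ V') (k : ℕ) (W : Finset V) (t : ℕ) :
    (T k (W.map ι) ^ t) nz Set.univ = (T k W ^ t) nz Set.univ := by
  classical
  obtain ⟨r, hr⟩ : ∃ r : (V' → Bool) → (V → Bool), r = fun σ => σ ∘ ι := ⟨_, rfl⟩
  have sj : Function.Surjective r := by rw [hr]; exact ι.injective.surjective_comp_right
  have hQ : ∀ f S, Q (W.map ι) f (r ⁻¹' S) = Q W (fun S => f (r ⁻¹' S)) S := fun f S => by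
    simp only [Q, av_apply, Lit_card, card_map]
    simp only [Lit, sum_product, sum_map, hr]
    rfl
  have hT : ∀ f S, T k (W.map ι) f (r ⁻¹' S) = T k W (fun S => f (r ⁻¹' S)) S := fun f S => by
    rw [T_eq, T_eq, ← Set.preimage_univ (f := r), intertwine r hQ]
    rfl
  rw [← Set.preimage_univ (f := r), intertwine r hT]
  have : (fun S => nz (r ⁻¹' S)) = nz := by
    ext S
    simp only [nz, em, Set.preimage_eq_empty_iff, sj.range_eq, Set.disjoint_univ]
  rw [this]

noncomputable def pp (k n t : ℕ) : ℝ := (T k (univ : Finset (Fin (n + 1))) ^ t) nz Set.univ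

lemma mk (k n : ℕ) : MK (T k (univ : Finset (Fin (n + 1)))) := T_MK k univ_nonempty

lemma pp0 (k n t : ℕ) : 0 ≤ pp k n t := ((mk k n).pow t).ge nz0 _
lemma pp1 (k n t : ℕ) : pp k n t ≤ 1 := ((mk k n).pow t).le nz1 _

lemma T_nz (k : ℕ) {W : Finset V} (h : W.Nonempty) (S : Set (V → Bool)) :
    T k W nz S = 1 - bb W S ^ k := by rw [(T_MK k h).nz, T_em]

lemma pp_anti (k n : ℕ) : Antitone (pp k n) := antitone_nat_of_succ_le fun t => by
  unfold pp
  rw [pow_succ, Module.End.mul_apply]
  refine ((mk k n).pow t).pos _ _ (fun S => ?_) _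
  have := hz0 (mk k n) S
  rw [(mk k n).nz]
  simp only [hz, Pi.sub_apply] at this
  unfold nz; linarith

lemma win {j : ℕ} (hj : 2 ≤ j) {C : ℕ} (hC : 1 ≤ C) (n : ℕ) {s : ℝ} (s0 : 0 < s)
    (hs : s ^ 3 = n + 1) {a b : ℕ} (hb : b < C * (n + 1)) {δ : ℝ} (δ0 : 0 ≤ δ)
    (ha : pp (j + 1) n a ≤ 1 - δ) (hb' : δ ≤ pp (j + 1) n b) :
    δ * ((b : ℝ) - a) ≤ C * (KY j C + 1) * s ^ 2 := by
  have K0 : 0 ≤ KY j C := by unfold KY; positivity
  rcases le_total a b with hab | hab
  swap
  · have : (b : ℝ) ≤ a := by exact_mod_cast hab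
    exact (mul_nonpos_of_nonneg_of_nonpos δ0 (by linarith)).trans (by positivity)
  have w := window (pp_anti (j + 1) n) (pp0 _ _) (pp1 _ _) hb δ0 ha hb' hab
  have ne : (univ : Finset (Fin (n + 1))).Nonempty := univ_nonempty
  have C1 : (1 : ℝ) ≤ C := by exact_mod_cast hC
  have v := var_le (pi_ne (j + 1) ne) satc (C * (n + 1))
    (ψ := (2 * (C * s)) • hz (T 1 univ)) (fun S => by
      have h1 := hz_life (mk (j + 1) n) (C * (n + 1)) S
      have h2 := life_le (mk (j + 1) n) (C * (n + 1)) S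
      change 2 * life (T (j + 1) univ) _ S * hz (T (j + 1) univ) S ≤ _
      simp only [Pi.smul_apply, smul_eq_mul, hz_T _ ne, pow_one] at h1 ⊢
      have b0 := bb0 ne S
      have n0 := nz0 S
      by_cases e : S = ∅
      · simp [e]
      rw [nz_ne e, mul_one] at h1 ⊢
      rw [mul_one, mul_assoc 2, mul_assoc 2]
      refine mul_le_mul_of_nonneg_left ?_ zero_le_two
      rcases le_total 1 (C * s * bb univ S) with h | h
      · linarith
      · have a1 : bb univ S ^ (j + 1) ≤ bb univ S ^ 3 := pow_le_pow_of_le_one b0 (bb1 ne S) (by omega)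
        have a2 : ((C * (n + 1) : ℕ) : ℝ) ≤ (C * s) ^ 3 := by
          push_cast
          rw [mul_pow, hs]
          gcongr
          exact le_self_pow₀ C1 (by norm_num)
        calc _ ≤ (C * s) ^ 3 * bb univ S ^ 3 := mul_le_mul (h2.trans a2) a1 (by positivity)
              (by positivity)
          _ = (C * s * bb univ S) ^ 3 := by ring
          _ ≤ (C * s * bb univ S) ^ 1 := pow_le_pow_of_le_one (by positivity) h (by norm_num)
          _ = _ := pow_one _) le_rfl Set.univ
  have y := Ybound hj C n (univ : Finset (Fin (n + 1))) (by simp) 0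
  simp only [Ysum, pow_zero, Module.End.one_apply, mul_one] at y
  simp only [life, Finset.sum_apply, Pi.smul_apply, smul_eq_mul, map_smul, ← mul_sum] at v
  have := w.trans (v.trans (mul_le_mul_of_nonneg_left (mul_le_mul_of_nonneg_left y
    (by positivity)) (by positivity)))
  refine le_of_sq_le_sq (this.trans ?_) (by positivity)
  push_cast
  rw [← hs]
  have : 0 ≤ (C : ℝ) ^ 2 * s ^ 4 * (KY j C ^ 2 + 1) := by positivity
  nlinarith

lemma interp (k n1 n2 t : ℕ) {a : ℝ} (ha : a = (n1 + 1) / (n1 + 1 + (n2 + 1))) :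
    ∑ m ∈ antidiagonal t, (t.choose m.1 * a ^ m.1 * (1 - a) ^ m.2) * (pp k n1 m.1 * pp k n2 m.2)
      ≤ pp k (n1 + n2 + 1) t := by
  obtain ⟨W1, h1⟩ : ∃ W1 : Finset (Fin (n1 + 1) ⊕ Fin (n2 + 1)),
    W1 = univ.map Function.Embedding.inl := ⟨_, rfl⟩
  obtain ⟨W2, h2⟩ : ∃ W2 : Finset (Fin (n1 + 1) ⊕ Fin (n2 + 1)),
    W2 = univ.map Function.Embedding.inr := ⟨_, rfl⟩
  have dj : Disjoint W1 W2 := by rw [h1, h2]; simp [disjoint_left]
  have n1' : W1.Nonempty := by rw [h1]; simp
  have n2' : W2.Nonempty := by rw [h2]; simp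
  have nW : (W1 ∪ W2).Nonempty := n1'.mono subset_union_left
  have e : pp k (n1 + n2 + 1) t = (T k (W1 ∪ W2) ^ t) nz Set.univ := by
    have : W1 ∪ W2 = univ.map (finSumFinEquiv.trans (finCongr
        (by omega : n1 + 1 + (n2 + 1) = n1 + n2 + 1 + 1))).symm.toEmbedding := by
      rw [map_univ_equiv, h1, h2]
      ext x; cases x <;> simp
    rw [this, relabel, pp]
  have a0 : 0 ≤ a := by rw [ha]; positivity
  have a1 : a ≤ 1 := by rw [ha, div_le_one (by positivity)]; linarith [n2.cast_nonneg (α := ℝ)]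
  have m1 := T_MK k n1'
  have m2 := T_MK k n2'
  have m0 := T_MK k nW
  have mX := m1.cvx m2 a0 a1
  have cX : Commute (T k (W1 ∪ W2)) (a • T k W1 + (1 - a) • T k W2) :=
    ((T_comm _ _ _ _).smul_right _).add_right ((T_comm _ _ _ _).smul_right _)
  have one : (a • T k W1 + (1 - a) • T k W2) nz ≤ T k (W1 ∪ W2) nz := fun S => by
    simp only [LinearMap.add_apply, LinearMap.smul_apply, Pi.add_apply, Pi.smul_apply, smul_eq_mul,
      T_nz k n1', T_nz k n2', T_nz k nW]
    have b : bb (W1 ∪ W2) S = a * bb W1 S + (1 - a) * bb W2 S := by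
      have : (W1.card : ℝ) / (W1.card + W2.card) = a := by rw [ha, h1, h2]; simp
      simp only [bb, Q_split dj n1' n2', this]
      rfl
    have := (convexOn_pow k).2 (bb0 n1' S) (bb0 n2' S) a0 (sub_nonneg.mpr a1) (by ring)
    simp only [smul_eq_mul] at this
    rw [b]; linarith
  have ind : ∀ t, ((a • T k W1 + (1 - a) • T k W2) ^ t) nz ≤ (T k (W1 ∪ W2) ^ t) nz := fun t => by
    induction t with
    | zero => exact le_rfl
    | succ t ih =>
      rw [pow_succ', pow_succ (T k (W1 ∪ W2)), Module.End.mul_apply, Module.End.mul_apply]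
      refine (mX.pos _ _ ih).trans (le_trans (le_of_eq ?_) ((m0.pow t).pos _ _ one))
      rw [← Module.End.mul_apply, ← (cX.pow_left t).eq]; rfl
  rw [e]
  refine le_trans (le_of_eq ?_) (ind t _)
  rw [binom (T_comm _ _ _ _)]
  refine sum_congr rfl fun m _ => ?_
  congr 1
  have := (T_pres k W1).pow m.1 Set.univ ((T k W2 ^ m.2) nz) (pp k n2 m.2 • nz) (fun S hS => by
    rw [Set.univ_inter, Pi.smul_apply, smul_eq_mul]
    by_cases e : S = ∅
    · rw [e, (m2.pow _).empty, nz_empty, mul_zero]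
    · have := (T_pres k W2).pow m.2 S nz nz (fun S' hS' => by rw [nz, nz, dep_em dj hS hS' e])
        Set.univ (dep_univ _)
      rw [Set.inter_univ] at this
      rw [this, nz_ne e, mul_one, h2, relabel, pp]) Set.univ (dep_univ _)
  rw [Set.univ_inter] at this
  rw [this, map_smul, Pi.smul_apply, smul_eq_mul, h1, relabel, mul_comm]
  rfl

open Classical in
lemma T_ind (k : ℕ) {W : Finset V} (h : W.Nonempty) (σ : V → Bool) (t : ℕ) :
    (T k W ^ t) (fun S => if σ ∈ S then (1 : ℝ) else 0)
      = (1 - (1 / 2 : ℝ) ^ k) ^ t • fun S => if σ ∈ S then (1 : ℝ) else 0 := by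
  have b : bb W {σ} = 1 / 2 := by
    have c : (W.card : ℝ) ≠ 0 := by exact_mod_cast h.card_pos.ne'
    simp only [bb, Q, av_apply, Lit_card, Set.univ_inter, Set.singleton_subset_iff]
    rw [Lit, sum_product, sum_congr rfl (g := fun _ => (1 : ℝ)) fun x _ => by
      cases e : σ x <;> simp [fals, e]]
    simp; field_simp
  induction t with
  | zero => simp
  | succ t ih =>
    rw [pow_succ', Module.End.mul_apply, ih, map_smul, pow_succ, mul_smul]
    congr 1
    ext S
    have e : (fun S => if σ ∈ S then (1 : ℝ) else 0) = shift {σ} nz := by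
      ext S
      by_cases h : σ ∈ S
      · rw [if_pos h, shift_apply, nz_ne (Set.Nonempty.ne_empty (s := S ∩ {σ}) ⟨σ, h, rfl⟩)]
      · rw [if_neg h, shift_apply, Set.inter_singleton_eq_empty.mpr h, nz_empty]
    conv_lhs => rw [e, (T_MK k h).at]
    by_cases h' : σ ∈ S
    · rw [Set.inter_eq_right.mpr (by simpa using h'), T_nz k h, b]; simp [h']
    · rw [Set.inter_singleton_eq_empty.mpr h', (T_MK k h).empty]; simp [h']

lemma pp_ge {k : ℕ} (hk : 1 ≤ k) (n t : ℕ) : (1 / 2 : ℝ) ^ t ≤ pp k n t := by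
  classical
  have := ((mk k n).pow t).pos (fun S => if (fun _ => true) ∈ S then (1 : ℝ) else 0) nz (fun S => by
    simp only
    split_ifs with h
    · rw [nz_ne (Set.Nonempty.ne_empty ⟨_, h⟩)]
    · exact nz0 S) Set.univ
  rw [T_ind k univ_nonempty] at this
  refine le_trans ?_ this
  have : (1 / 2 : ℝ) ^ k ≤ (1 / 2) ^ 1 := pow_le_pow_of_le_one (by norm_num) (by norm_num) hk
  simp only [Pi.smul_apply, Set.mem_univ, if_true, smul_eq_mul, mul_one]
  exact pow_le_pow_left₀ (by norm_num) (by linarith) _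

lemma pp_le (k n : ℕ) : pp k n (2 ^ (k + 1) * (n + 1)) < 1 / 2 := by
  classical
  have := ((mk k n).pow (2 ^ (k + 1) * (n + 1))).pos nz
    (∑ σ : Fin (n + 1) → Bool, fun S => if σ ∈ S then (1 : ℝ) else 0) (fun S => by
    rw [Finset.sum_apply]
    by_cases e : S = ∅
    · simp [e]
    · obtain ⟨σ, hσ⟩ := Set.nonempty_iff_ne_empty.mpr e
      refine (nz1 S).trans (le_trans (by simp [hσ]) (single_le_sum
        (f := fun σ => if σ ∈ S then (1 : ℝ) else 0) (fun _ _ => by split_ifs <;> norm_num)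
        (mem_univ σ)))) Set.univ
  simp only [map_sum, T_ind k univ_nonempty, Finset.sum_apply, Pi.smul_apply, Set.mem_univ, if_true,
    smul_eq_mul, mul_one, sum_const, card_univ, Fintype.card_fun, Fintype.card_bool,
    Fintype.card_fin, nsmul_eq_mul] at this
  refine this.trans_lt ?_
  have a : (1 - (1 / 2 : ℝ) ^ k) ^ (2 ^ (k + 1)) ≤ Real.exp (-2) := by
    have : (1 / 2 : ℝ) ^ k ≤ 1 := pow_le_one₀ (by norm_num) (by norm_num)
    refine (pow_le_pow_left₀ (by linarith) (Real.one_sub_le_exp_neg _) _).trans (le_of_eq ?_)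
    rw [← Real.exp_nat_mul]
    congr 1
    push_cast
    rw [one_div, inv_pow, pow_succ]; field_simp
  have b : Real.exp (-2) < 1 / 4 := by
    rw [Real.exp_neg, inv_lt_comm₀ (Real.exp_pos _) (by norm_num),
      show (2 : ℝ) = 1 + 1 by norm_num, Real.exp_add]
    nlinarith [Real.exp_one_gt_d9]
  have c : (1 / 2 : ℝ) ^ k ≤ 1 := pow_le_one₀ (by norm_num) (by norm_num)
  push_cast
  rw [pow_mul, ← mul_pow]
  calc _ ≤ (2 * Real.exp (-2)) ^ (n + 1) := by gcongr
    _ ≤ (2 * Real.exp (-2)) ^ 1 := pow_le_pow_of_le_one (by positivity) (by linarith) (by omega)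
    _ < _ := by linarith

lemma early (k : ℕ) {W : Finset V} (h : W.Nonempty) (N t : ℕ) : ∀ (U : Finset V) (S : Set (V → Bool)),
    Dep U S → S ≠ ∅ → U.card + k * t ≤ N → (T k W ^ t) em S ≤ t * ((N : ℝ) / W.card) ^ k := by
  classical
  induction t with
  | zero => intro U S _ ne _; simp [em_ne ne]
  | succ t ih =>
    intro U S hS ne hN
    have c : (0 : ℝ) < W.card := by exact_mod_cast h.card_pos
    have a : (T k W ^ (t + 1)) em S ≤ T k W em S + t * ((N : ℝ) / W.card) ^ k := by
      rw [pow_succ', Module.End.mul_apply]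
      nth_rewrite 1 [T]
      nth_rewrite 2 [T]
      rw [av_apply, av_apply]
      have c' : ((Fintype.piFinset fun _ : Fin k => Lit W).card : ℝ) ≠ 0 := by
        exact_mod_cast (pi_ne k h).card_pos.ne'
      rw [← inv_mul_cancel_left₀ c' (t * ((N : ℝ) / W.card) ^ k), ← mul_add, ← nsmul_eq_mul,
        ← sum_const, ← sum_add_distrib]
      refine mul_le_mul_of_nonneg_left (sum_le_sum fun c _ => ?_) (by positivity)
      by_cases e : S ∩ satc c = ∅
      · rw [e, ((T_MK k h).pow t).empty]
        exact le_add_of_nonneg_right (by positivity)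
      · rw [em_ne e, zero_add]
        refine ih (U ∪ univ.image fun i => (c i).1) _ ((hS.mono subset_union_left).inter
          (dep_satc fun i => by simp)) e ?_
        have := (card_union_le U (univ.image fun i => (c i).1)).trans
          (Nat.add_le_add_left card_image_le _)
        simp only [card_univ, Fintype.card_fin] at this
        rw [mul_add] at hN
        omega
    have b : bb W S ≤ (N : ℝ) / W.card := by
      obtain ⟨σ, hσ⟩ := Set.nonempty_iff_ne_empty.mpr ne
      simp only [bb, Q, av_apply, Lit_card, Set.univ_inter]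
      rw [sum_boole, inv_mul_le_iff₀ (by positivity)]
      have : ((Lit W).filter fun l => S ⊆ fals l).card ≤ (Lit U).card := card_le_card fun l hl => by
        refine mem_product.mpr ⟨by_contra fun hx => ?_, mem_univ _⟩
        have := (mem_filter.mp hl).2 (hS σ (Function.update σ l.1 l.2) (fun x hx' => by
          rw [Function.update_of_ne]; rintro rfl; exact hx hx') hσ)
        simp [fals] at this
      rw [Lit_card] at this
      have e : ((W.card * 2 : ℕ) : ℝ) * ((N : ℝ) / W.card) = (N * 2 : ℕ) := by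
        push_cast; field_simp
      rw [e]
      exact_mod_cast (by omega)
    rw [T_em] at a
    have := pow_le_pow_left₀ (bb0 h S) b k
    push_cast; linarith

end Vale.Agent.P170
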