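import Vale.Agent.P170.Ops

namespace Vale.Agent.P170

open Finset

variable {A : Type}

noncomputable def life (T : Op A) (r : ℕ) : Set A → ℝ := ∑ s ∈ range r, (T ^ s) nz

noncomputable def hz (T : Op A) : Set A → ℝ := T em - em

section
variable {T : Op A} (hT : MK T)
include hT

lemma sum_nonneg' {f : Set A → ℝ} (h : ∀ S, 0 ≤ f S) (r : ℕ) (S : Set A) :
    0 ≤ (∑ s ∈ range r, (T ^ s) f) S := by
  rw [Finset.sum_apply]; exact sum_nonneg fun s _ => (hT.pow s).ge h S

lemma sum_mono' {f : Set A → ℝ} (h : ∀ S, 0 ≤ f S) {r r' : ℕ} (e : r ≤ r') (S : Set A) :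
    (∑ s ∈ range r, (T ^ s) f) S ≤ (∑ s ∈ range r', (T ^ s) f) S := by
  rw [Finset.sum_apply, Finset.sum_apply]
  exact sum_le_sum_of_subset_of_nonneg (range_mono e) fun s _ _ => (hT.pow s).ge h S

lemma life_empty (r : ℕ) : life T r ∅ = 0 := by
  rw [life, Finset.sum_apply]; exact sum_eq_zero fun s _ => by rw [(hT.pow s).empty, nz_empty]

lemma hz_empty : hz T ∅ = 0 := by simp [hz, hT.empty]

lemma hz_ne {S : Set A} (h : S ≠ ∅) : hz T S = T em S := by simp [hz, em_ne h]

lemma hz0 (S : Set A) : 0 ≤ hz T S := by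
  by_cases h : S = ∅
  · rw [h, hz_empty hT]
  · rw [hz_ne hT h]; exact hT.ge em0 S

lemma hz_sum {L : Op A} (hL : MK L) (r : ℕ) (S : Set A) :
    ∑ s ∈ range r, (T ^ s) (L (hz T)) S ≤ 1 ∨ ¬ Commute T L := by
  by_cases c : Commute T L
  · left
    have e : L (hz T) = T (L em) - L em := by
      rw [hz, map_sub, ← Module.End.mul_apply, ← c.eq]; rfl
    rw [e, ← Finset.sum_apply, pow_tel]
    have := (hT.pow r).le (hL.le em1) S
    have := hL.ge em0 S
    simp only [Pi.sub_apply]; linarith
  · exact Or.inr c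

lemma hz_life (r : ℕ) (S : Set A) : hz T S * life T r S ≤ 1 := by
  refine le_trans ?_ ((hz_sum hT MK.id r S).resolve_right fun h => h (Commute.one_right _))
  rw [life, Finset.sum_apply, mul_sum]
  refine sum_le_sum fun s _ => ?_
  have := (hT.pow s).pos (hz T S • shift S nz) (shift S (hz T)) (fun S' => by
    simp only [Pi.smul_apply, shift_apply, smul_eq_mul]
    by_cases h : S' ∩ S = ∅
    · rw [h, hz_empty hT]; simp
    · rw [nz_ne h, mul_one, hz_ne hT h, hz_ne hT fun e => h (by simp [e])]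
      exact hT.anti _ em_anti Set.inter_subset_right) S
  rwa [map_smul, Pi.smul_apply, (hT.pow s).at, (hT.pow s).at, Set.inter_self] at this

lemma life_le (r : ℕ) (S : Set A) : life T r S ≤ r := by
  rw [life, Finset.sum_apply]
  simpa using sum_le_card_nsmul (range r) _ 1 fun s _ => (hT.pow s).le nz1 S

lemma usq (Z : Set A) (M : ℕ) {r : ℕ} (hr : r ≤ M) (S : Set A) :
    (life T r S - life T r (S ∩ Z)) ^ 2
      ≤ (∑ s ∈ range r, (T ^ s) fun S => 2 * life T M S * (nz S - nz (S ∩ Z))) S := by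
  induction r generalizing S with
  | zero => simp [life]
  | succ r ih =>
    have l0 : ∀ S, 0 ≤ life T r S := sum_nonneg' hT nz0 r
    have e : ∀ S, life T (r + 1) S = nz S + T (life T r) S := fun S => by
      rw [life, sum_succ]; rfl
    obtain ⟨u, hu⟩ : ∃ u, u = life T r - shift Z (life T r) := ⟨_, rfl⟩
    have e2 : T u S = T (life T r) S - T (life T r) (S ∩ Z) := by
      rw [hu, map_sub, Pi.sub_apply, hT.at]
    have j := (hT.jensen u S).trans (hT.pos (fun S => u S ^ 2)
      (∑ s ∈ range r, (T ^ s) fun S => 2 * life T M S * (nz S - nz (S ∩ Z)))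
      (fun S => by subst hu; exact ih (by omega) S) S)
    have b := hT.ge l0 (S ∩ Z)
    have c : life T (r + 1) S ≤ life T M S := sum_mono' hT nz0 hr S
    rw [sum_succ, Pi.add_apply, e (S ∩ Z)]
    rw [e S] at c ⊢
    rw [e2] at j
    by_cases h : S ∩ Z = ∅
    · by_cases h' : S = ∅
      · simp only [h', Set.empty_inter, sub_self, mul_zero] at j ⊢
        linarith
      · rw [nz_ne h'] at c ⊢
        rw [show nz (S ∩ Z) = 0 by rw [h, nz_empty]]
        nlinarith
    · have h' : S ≠ ∅ := fun e => h (by simp [e])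
      rw [nz_ne h, nz_ne h']
      nlinarith

end

lemma var_le {ι : Type} {I : Finset ι} (hI : I.Nonempty) (Z : ι → Set A) (M : ℕ) {ψ : Set A → ℝ}
    (h : ∀ S, 2 * life (av I Z) M S * hz (av I Z) S ≤ ψ S) {r : ℕ} (hr : r ≤ M) (S : Set A) :
    (∑ s ∈ range r, (2 * (s : ℝ) + 1) • (av I Z ^ s) nz) S - life (av I Z) r S ^ 2
      ≤ r * (∑ s ∈ range r, (av I Z ^ s) ψ) S := by
  have hT := MK.av hI Z
  obtain ⟨T, hT'⟩ : ∃ T, T = av I Z := ⟨_, rfl⟩
  rw [← hT'] at hT h ⊢
  have ψ0 : ∀ S, 0 ≤ ψ S := fun S => le_trans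
    (mul_nonneg (mul_nonneg zero_le_two (sum_nonneg' hT nz0 M S)) (hz0 hT S)) (h S)
  induction r generalizing S with
  | zero => simp [life]
  | succ r ih =>
    have e : life T (r + 1) S = nz S + T (life T r) S := by rw [life, sum_succ]; rfl
    have e2 : ∑ s ∈ range (r + 1), (2 * (s : ℝ) + 1) • (T ^ s) nz
        = nz + T (∑ s ∈ range r, (2 * (s : ℝ) + 1) • (T ^ s) nz) + (2 : ℝ) • T (life T r) := by
      rw [sum_range_succ', life, map_sum, map_sum, smul_sum, add_assoc, ← sum_add_distrib, add_comm]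
      congr 1
      · simp
      · refine sum_congr rfl fun s _ => ?_
        rw [map_smul, ← add_smul, pow_succ', Module.End.mul_apply]
        congr 1; push_cast; ring
    have a := hT.pos (∑ s ∈ range r, (2 * (s : ℝ) + 1) • (T ^ s) nz)
      ((fun S => life T r S ^ 2) + (r : ℝ) • ∑ s ∈ range r, (T ^ s) ψ) (fun S => by
        have := ih (by omega) S
        simp only [Pi.add_apply, Pi.smul_apply, smul_eq_mul]
        linarith) S
    rw [map_add, map_smul] at a
    have b : T (fun S' => (life T r S' - life T r S) ^ 2) S ≤ (∑ s ∈ range r, (T ^ s) ψ) S := by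
      have key : ∀ s, (I.card : ℝ)⁻¹ * ∑ i ∈ I, (T ^ s)
          (fun S => 2 * life T M S * (nz S - nz (S ∩ Z i))) S ≤ (T ^ s) ψ S := fun s => by
        rw [← Finset.sum_apply, ← map_sum, ← smul_eq_mul, ← Pi.smul_apply, ← map_smul]
        refine (hT.pow s).pos _ _ (fun S => le_trans (le_of_eq ?_) (h S)) S
        have c : (I.card : ℝ) ≠ 0 := by exact_mod_cast hI.card_pos.ne'
        have := hT.nz S
        conv_lhs at this => rw [hT', av_apply]
        simp only [Pi.smul_apply, Finset.sum_apply, smul_eq_mul, ← mul_sum, sum_sub_distrib,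
          sum_const, nsmul_eq_mul, hz, Pi.sub_apply]
        rw [mul_left_comm, mul_sub, this, inv_mul_cancel_left₀ c, nz]
        ring
      conv_lhs => rw [hT', av_apply, ← hT']
      refine le_trans (mul_le_mul_of_nonneg_left (sum_le_sum fun i _ =>
        (le_of_eq (by ring)).trans (usq hT (Z i) M (r := r) (by omega) S)) (by positivity)) ?_
      simp only [Finset.sum_apply]
      rw [sum_comm, mul_sum]
      exact sum_le_sum fun s _ => key s
    rw [hT.sq] at b
    have c := sum_mono' hT ψ0 (Nat.le_succ r) S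
    have d := ψ0 S
    have f : nz S * T (life T r) S = T (life T r) S := by
      by_cases h' : S = ∅
      · rw [h', hT.empty, life_empty hT, mul_zero]
      · rw [nz_ne h', one_mul]
    have g : nz S ^ 2 = nz S := by
      by_cases h' : S = ∅
      · simp [h']
      · simp [nz_ne h']
    rw [e, e2]
    rw [Nat.succ_eq_add_one] at c
    have c' := sum_succ T ψ r
    have r0 : (0 : ℝ) ≤ r := by positivity
    have c2 : T (∑ s ∈ range r, (T ^ s) ψ) S ≤ (∑ s ∈ range (r + 1), (T ^ s) ψ) S := by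
      rw [c', Pi.add_apply]; linarith
    have c3 := mul_le_mul_of_nonneg_left c2 r0
    simp only [Pi.add_apply, Pi.smul_apply, smul_eq_mul] at a ⊢
    push_cast
    nlinarith [sq_nonneg (life T r S - T (life T r) S)]

lemma window {p : ℕ → ℝ} (pa : Antitone p) (p0 : ∀ t, 0 ≤ p t) (p1 : ∀ t, p t ≤ 1) {M a b : ℕ}
    (hb : b < M) {δ : ℝ} (δ0 : 0 ≤ δ) (ha : p a ≤ 1 - δ) (hb' : δ ≤ p b) (hab : a ≤ b) :
    (δ * ((b : ℝ) - a)) ^ 2 ≤ ∑ s ∈ range M, (2 * (s : ℝ) + 1) * p s - (∑ s ∈ range M, p s) ^ 2 := by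
  have e : ∀ M, ∑ s ∈ range M, (2 * (s : ℝ) + 1) * p s
      = ∑ s ∈ range M, ∑ s' ∈ range M, p (max s s') := by
    intro M
    induction M with
    | zero => simp
    | succ M ih =>
      simp only [sum_range_succ, sum_add_distrib, ih, max_self]
      rw [sum_congr rfl (f := fun s => p (max s M)) (g := fun _ => p M) fun s hs => by
          rw [max_eq_right (mem_range.mp hs).le],
        sum_congr rfl (f := fun s => p (max M s)) (g := fun _ => p M) fun s hs => by
          rw [max_eq_left (mem_range.mp hs).le]]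
      simp; ring
  rw [e, sq (∑ s ∈ range M, p s), sum_mul_sum, ← sum_sub_distrib]
  simp_rw [← sum_sub_distrib]
  have t : ∀ s s', p (max s s') - p s * p s' = p (max s s') * (1 - p (min s s')) := fun s s' => by
    rcases le_total s s' with h | h <;> simp [h] <;> ring
  have nn : ∀ s s', 0 ≤ p (max s s') - p s * p s' := fun s s' => by
    rw [t]; exact mul_nonneg (p0 _) (by linarith [p1 (min s s')])
  have sub : Ico a b ⊆ range M := fun s hs => mem_range.mpr ((mem_Ico.mp hs).2.trans hb)
  calc _ = ∑ _s ∈ Ico a b, ∑ _s' ∈ Ico a b, δ * δ := by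
        simp only [sum_const, Nat.card_Ico, nsmul_eq_mul, Nat.cast_sub hab]; ring
    _ ≤ ∑ s ∈ Ico a b, ∑ s' ∈ Ico a b, (p (max s s') - p s * p s') := by
        refine sum_le_sum fun s hs => sum_le_sum fun s' hs' => ?_
        rw [t]
        have h1 := mem_Ico.mp hs
        have h2 := mem_Ico.mp hs'
        have := pa (show max s s' ≤ b by omega)
        have := pa (show a ≤ min s s' by omega)
        exact mul_le_mul (by linarith) (by linarith) δ0 (p0 _)
    _ ≤ _ := (sum_le_sum fun s _ => sum_le_sum_of_subset_of_nonneg sub fun s' _ _ => nn s s').trans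
        (sum_le_sum_of_subset_of_nonneg sub fun s _ _ => sum_nonneg fun s' _ => nn s s')

end Vale.Agent.P170
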